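import Mathlib
import Crest.Prelude.Def_AsymptoticConvexity

/-! Shared lemmas for row 125: bounded weakly null trees of arbitrary finite height rule out an
equivalent asymptotically uniformly convex norm. -/

set_option autoImplicit false
open Crest.AnalysisR

namespace Crest.Agent.R125

variable {X : Type} [NormedAddCommGroup X] [NormedSpace ℝ X] [CompleteSpace X]

/-- The record of a Banach space given by instances. -/
abbrev mkB (X : Type) [NormedAddCommGroup X] [NormedSpace ℝ X] [CompleteSpace X] : RealBanach :=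
  ⟨X, inferInstance, inferInstance, inferInstance⟩

theorem isCof_iff (F : Set X) : (mkB X).IsCof F ↔
    ∃ S : Submodule ℝ X, (S : Set X) = F ∧ IsClosed F ∧ FiniteDimensional ℝ (X ⧸ S) := Iff.rfl

/-- The kernel of a continuous linear map to a finite-dimensional space is closed and of finite
codimension. -/
theorem isCof_ker {G : Type*} [NormedAddCommGroup G] [NormedSpace ℝ G] [FiniteDimensional ℝ G]
    (T : X →L[ℝ] G) : (mkB X).IsCof {y : X | T y = 0} := by
  refine ⟨LinearMap.ker (T : X →ₗ[ℝ] G), ?_, ?_, ?_⟩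
  · ext y; simp
  · exact isClosed_eq T.continuous continuous_const
  · exact LinearEquiv.finiteDimensional (LinearMap.quotKerEquivRange (T : X →ₗ[ℝ] G)).symm

/-- Finite-rank version: the kernel of a continuous linear map with finite-dimensional range. -/
theorem isCof_ker_of_range {G : Type*} [NormedAddCommGroup G] [NormedSpace ℝ G]
    (T : X →L[ℝ] G) [FiniteDimensional ℝ (LinearMap.range (T : X →ₗ[ℝ] G))] :
    (mkB X).IsCof {y : X | T y = 0} := by
  refine ⟨LinearMap.ker (T : X →ₗ[ℝ] G), ?_, ?_, ?_⟩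
  · ext y; simp
  · exact isClosed_eq T.continuous continuous_const
  · exact LinearEquiv.finiteDimensional (LinearMap.quotKerEquivRange (T : X →ₗ[ℝ] G)).symm

/-- Trees of arbitrary finite height: `A k` is the set of nodes of remaining height `k`. -/
theorem not_isAUC_of_trees (δ M : ℝ) (hδ : 0 < δ) (A : ℕ → Set X)
    (hne : ∀ k, ∃ x ∈ A k, δ ≤ ‖x‖) (hb : ∀ k, ∀ x ∈ A k, ‖x‖ ≤ M)
    (hstep : ∀ k, ∀ x ∈ A (k + 1), ∀ F : Set X, (mkB X).IsCof F → ∀ ε : ℝ, 0 < ε →
      ∃ y ∈ F, δ ≤ ‖y‖ ∧ ∃ x' ∈ A k, ‖x + y - x'‖ ≤ ε)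
    (N : X → ℝ) (hN : (mkB X).IsEquivNorm N) : ¬ (mkB X).IsAUC N := by
  intro hA
  obtain ⟨hadd, hsmul, a, b, ha, hab⟩ := hN
  change ∀ x y : X, N (x + y) ≤ N x + N y at hadd
  change ∀ (a : ℝ) (x : X), N (a • x) = abs a * N x at hsmul
  change ∀ x : X, a * ‖x‖ ≤ N x ∧ N x ≤ b * ‖x‖ at hab
  obtain ⟨x0, hx0, hx0δ⟩ := hne 0
  have hM : 0 < M := lt_of_lt_of_le hδ (hx0δ.trans (hb 0 x0 hx0))
  have hx0pos : 0 < ‖x0‖ := lt_of_lt_of_le hδ hx0δ
  have hb0 : 0 < b := by
    have h1 := (hab x0).1.trans (hab x0).2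
    have : a ≤ b := le_of_mul_le_mul_right h1 hx0pos
    linarith
  have haδ : 0 < a * δ := mul_pos ha hδ
  have hbM : 0 < b * M := mul_pos hb0 hM
  obtain ⟨c, hc, hcA⟩ := hA (a * δ / (b * M)) (div_pos haδ hbM)
  change ∀ x : X, N x = 1 → ∃ F : Set X, (mkB X).IsCof F ∧
    ∀ y ∈ F, N y = 1 → c ≤ N (x + (a * δ / (b * M)) • y) - 1 at hcA
  have hNle : ∀ k, ∀ x ∈ A k, N x ≤ b * M := fun k x hx =>
    (hab x).2.trans (mul_le_mul_of_nonneg_left (hb k x hx) hb0.le)
  have key : ∀ k, ∀ x ∈ A k, a * δ ≤ N x → (1 + c / 2) ^ k * N x ≤ b * M := by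
    intro k
    induction k with
    | zero => intro x hx _; simpa using hNle 0 x hx
    | succ k ih =>
      intro x hx hxN
      have hNx : 0 < N x := lt_of_lt_of_le haδ hxN
      have h1 : N ((N x)⁻¹ • x) = 1 := by
        rw [hsmul, abs_of_pos (inv_pos.2 hNx), inv_mul_cancel₀ hNx.ne']
      obtain ⟨F, hF, hFy⟩ := hcA _ h1
      obtain ⟨y, hyF, hyδ, x', hx', hxx'⟩ :=
        hstep k x hx F hF (c / 2 * (a * δ) / b) (by positivity)
      have hNy : a * δ ≤ N y := (mul_le_mul_of_nonneg_left hyδ ha.le).trans (hab y).1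
      have hNy0 : 0 < N y := lt_of_lt_of_le haδ hNy
      obtain ⟨S, rfl, -, -⟩ := hF
      have h2 : N ((N y)⁻¹ • y) = 1 := by
        rw [hsmul, abs_of_pos (inv_pos.2 hNy0), inv_mul_cancel₀ hNy0.ne']
      have h3 := hFy _ (S.smul_mem (N y)⁻¹ hyF) h2
      -- write the test point as a convex combination of `x / N x` and `(x + y) / N x`
      set θ : ℝ := a * δ / (b * M) * (N y)⁻¹ * N x with hθ
      have hθ0 : 0 < θ := by positivity
      have hθ1 : θ ≤ 1 := by
        have e : θ = (a * δ / N y) * (N x / (b * M)) := by rw [hθ]; field_simp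
        rw [e]
        exact mul_le_one₀ ((div_le_one hNy0).2 hNy) (by positivity)
          ((div_le_one hbM).2 (hNle _ x hx))
      have h4 : (N x)⁻¹ • x + (a * δ / (b * M)) • (N y)⁻¹ • y
          = ((1 - θ) * (N x)⁻¹) • x + (θ * (N x)⁻¹) • (x + y) := by
        have e : θ * (N x)⁻¹ = a * δ / (b * M) * (N y)⁻¹ := by rw [hθ]; field_simp
        rw [smul_add, ← add_assoc, ← add_smul, smul_smul, e]
        congr 2
        rw [← e]; ring
      rw [h4] at h3
      have h5 := hadd (((1 - θ) * (N x)⁻¹) • x) ((θ * (N x)⁻¹) • (x + y))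
      rw [hsmul, hsmul, abs_of_nonneg (mul_nonneg (by linarith) (inv_pos.2 hNx).le),
        abs_of_pos (mul_pos hθ0 (inv_pos.2 hNx)), mul_assoc (1 - θ),
        inv_mul_cancel₀ hNx.ne'] at h5
      have h6 : c ≤ θ * ((N x)⁻¹ * N (x + y) - 1) := by nlinarith
      have h7 : c ≤ (N x)⁻¹ * N (x + y) - 1 := by
        by_contra hcon
        push Not at hcon
        have : 0 < (N x)⁻¹ * N (x + y) - 1 := by
          by_contra h
          push Not at h
          nlinarith
        nlinarith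
      have h8 : (1 + c) * N x ≤ N (x + y) := by
        have := mul_le_mul_of_nonneg_left h7 hNx.le
        rw [mul_sub, ← mul_assoc, mul_inv_cancel₀ hNx.ne'] at this
        linarith
      have h9 : N (x + y) ≤ N x' + c / 2 * (a * δ) := by
        have e : x + y = x' + (x + y - x') := by abel
        have h10 := hadd x' (x + y - x')
        rw [← e] at h10
        have h11 := (hab (x + y - x')).2.trans (mul_le_mul_of_nonneg_left hxx' hb0.le)
        rw [mul_div_cancel₀ _ hb0.ne'] at h11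
        linarith
      have h12 : (1 + c / 2) * N x ≤ N x' := by nlinarith
      have h13 := ih x' hx' (by nlinarith)
      have h14 : 0 ≤ (1 + c / 2) ^ k := by positivity
      calc (1 + c / 2) ^ (k + 1) * N x = (1 + c / 2) ^ k * ((1 + c / 2) * N x) := by ring
        _ ≤ (1 + c / 2) ^ k * N x' := mul_le_mul_of_nonneg_left h12 h14
        _ ≤ b * M := h13
  obtain ⟨k, hk⟩ := pow_unbounded_of_one_lt (b * M / (a * δ)) (show 1 < 1 + c / 2 by linarith)
  obtain ⟨x, hx, hxδ⟩ := hne k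
  have hNx : a * δ ≤ N x := (mul_le_mul_of_nonneg_left hxδ ha.le).trans (hab x).1
  have h1 := key k x hx hNx
  rw [div_lt_iff₀ haδ] at hk
  have h14 : 0 ≤ (1 + c / 2) ^ k := by positivity
  nlinarith [mul_le_mul_of_nonneg_left hNx h14]

/-- A sequence with an upper `ℓ₂` estimate comes arbitrarily close to every closed subspace of finite
codimension. -/
theorem exists_near_cof_of_upper_l2 (e : ℕ → X) (C : ℝ)
    (he : ∀ (s : Finset ℕ) (a : ℕ → ℝ), ‖∑ n ∈ s, a n • e n‖ ≤ C * Real.sqrt (∑ n ∈ s, a n ^ 2))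
    (F : Set X) (hF : (mkB X).IsCof F) (ε : ℝ) (hε : 0 < ε) :
    ∃ n, ∃ y ∈ F, ‖e n - y‖ < ε := by
  obtain ⟨S, rfl, hcl, hfin⟩ := hF
  change Submodule ℝ X at S
  have : IsClosed (S : Set X) := hcl
  have : FiniteDimensional ℝ (X ⧸ S) := hfin
  -- every continuous functional tends to zero along `e`
  have hw : ∀ φ : X →L[ℝ] ℝ, Filter.Tendsto (fun n => φ (e n)) Filter.atTop (nhds 0) := by
    intro φ
    have hs : Summable fun n => φ (e n) ^ 2 := by
      refine summable_of_sum_le (c := (‖φ‖ * C) ^ 2) (fun n => sq_nonneg _) fun s => ?_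
      have h1 : ∑ n ∈ s, φ (e n) ^ 2 = φ (∑ n ∈ s, φ (e n) • e n) := by
        simp [map_sum, sq]
      have h2 : φ (∑ n ∈ s, φ (e n) • e n) ≤ ‖φ‖ * (C * Real.sqrt (∑ n ∈ s, φ (e n) ^ 2)) :=
        (le_abs_self _).trans ((φ.le_opNorm _).trans
          (mul_le_mul_of_nonneg_left (he s _) (norm_nonneg _)))
      have h3 : 0 ≤ ∑ n ∈ s, φ (e n) ^ 2 := Finset.sum_nonneg fun n _ => sq_nonneg _
      have h4 := Real.sq_sqrt h3
      have h5 := Real.sqrt_nonneg (∑ n ∈ s, φ (e n) ^ 2)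
      set r := Real.sqrt (∑ n ∈ s, φ (e n) ^ 2)
      rw [← h1, ← h4] at h2
      rw [← h4]
      nlinarith [sq_nonneg (r - ‖φ‖ * C)]
    have h1 := hs.tendsto_atTop_zero
    have h2 := h1.sqrt
    simp only [Real.sqrt_sq_eq_abs, Real.sqrt_zero] at h2
    exact tendsto_zero_iff_abs_tendsto_zero _ |>.2 h2
  let q : X →L[ℝ] (X ⧸ S) := ⟨S.mkQ, continuous_quotient_mk'⟩
  let L := (Module.finBasis ℝ (X ⧸ S)).equivFunL
  have h1 : Filter.Tendsto (fun n => L (q (e n))) Filter.atTop (nhds 0) := by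
    rw [tendsto_pi_nhds]
    intro i
    exact hw ((ContinuousLinearMap.proj (R := ℝ) (φ := fun _ => ℝ) i).comp
      ((L : (X ⧸ S) →L[ℝ] (Fin (Module.finrank ℝ (X ⧸ S)) → ℝ)).comp q))
  have h2 : Filter.Tendsto (fun n => q (e n)) Filter.atTop (nhds 0) := by
    have := (L.symm.continuous.tendsto 0).comp h1
    simpa [Function.comp_def] using this
  have h3 := (tendsto_zero_iff_norm_tendsto_zero.1 h2).eventually (gt_mem_nhds (half_pos hε))
  obtain ⟨n, hn⟩ := h3.exists
  obtain ⟨m, hm, hm'⟩ := Submodule.Quotient.norm_mk_lt (q (e n)) (half_pos hε)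
  refine ⟨n, e n - m, ?_, ?_⟩
  · exact (Submodule.Quotient.eq S).1 hm.symm
  · simp only [sub_sub_cancel]; linarith

end Crest.Agent.R125
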