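import Mathlib
import Crest.Prelude.Def_DaugavetL1
import Crest.Agent.R125.NoAUC

/-! Consequences of the Daugavet property for a general real Banach space: slices, an averaging
argument, and the resulting one-sided and midpoint upper bounds. -/

set_option autoImplicit false
open Crest.AnalysisR Crest.AnalysisR.L1Subspace

namespace Crest.Agent.R125

variable {X : Type} [NormedAddCommGroup X] [NormedSpace ℝ X]

theorem daug_slice (hD : HasDaugavetProperty X) (u : X) (hu : ‖u‖ = 1) (φ : X →L[ℝ] ℝ)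
    (hφ : ‖φ‖ = 1) (ε : ℝ) (hε : 0 < ε) :
    ∃ z : X, ‖z‖ ≤ 1 ∧ 1 - ε ≤ φ z ∧ 2 - 2 * ε ≤ ‖u + z‖ := by
  have h := hD φ u
  rw [ContinuousLinearMap.norm_smulRight_apply, hφ, hu] at h
  obtain ⟨z, hz1, hz2⟩ := (ContinuousLinearMap.id ℝ X + φ.smulRight u).exists_lt_apply_of_lt_opNorm
    (r := 2 - ε) (by rw [h]; linarith)
  simp only [add_apply, ContinuousLinearMap.id_apply,
    ContinuousLinearMap.smulRight_apply] at hz2
  -- symmetric form
  have key : ∀ w : X, ‖w‖ ≤ 1 → 0 ≤ φ w → 2 - ε < ‖w + φ w • u‖ →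
      1 - ε ≤ φ w ∧ 2 - 2 * ε ≤ ‖u + w‖ := by
    intro w hw h0 h2
    have h3 : ‖w + φ w • u‖ ≤ ‖w‖ + φ w := by
      have := norm_add_le w (φ w • u)
      rwa [norm_smul, hu, mul_one, Real.norm_eq_abs, abs_of_nonneg h0] at this
    have h4 : φ w ≤ 1 := by
      have := φ.le_opNorm w
      rw [hφ, one_mul, Real.norm_eq_abs] at this
      exact (le_abs_self _).trans (this.trans hw)
    have h5 : ‖w + φ w • u‖ ≤ ‖u + w‖ + (1 - φ w) := by
      have e : w + φ w • u = (u + w) + (-(1 - φ w)) • u := by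
        rw [neg_smul, sub_smul, one_smul]; abel
      have := norm_add_le (u + w) ((-(1 - φ w)) • u)
      rw [← e, norm_smul, hu, mul_one, Real.norm_eq_abs, abs_neg,
        abs_of_nonneg (by linarith)] at this
      exact this
    constructor <;> linarith
  rcases le_total 0 (φ z) with h0 | h0
  · exact ⟨z, hz1.le, key z hz1.le h0 hz2⟩
  · refine ⟨-z, by simpa using hz1.le, key (-z) (by simpa using hz1.le) (by simpa using h0) ?_⟩
    have e : -z + φ (-z) • u = -(z + φ z • u) := by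
      rw [map_neg, neg_smul]; abel
    rw [e, norm_neg]; exact hz2

theorem exists_unit_smul {Y : Type*} [NormedAddCommGroup Y] [NormedSpace ℝ Y]
    (y0 : Y) (hy0 : ‖y0‖ = 1) (v : Y) : ∃ u : Y, ‖u‖ = 1 ∧ v = ‖v‖ • u := by
  by_cases hv : v = 0
  · exact ⟨y0, hy0, by simp [hv]⟩
  · have h : ‖v‖ ≠ 0 := norm_ne_zero_iff.2 hv
    refine ⟨‖v‖⁻¹ • v, ?_, ?_⟩
    · rw [norm_smul, norm_inv, norm_norm, inv_mul_cancel₀ h]
    · rw [smul_smul, mul_inv_cancel₀ h, one_smul]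

theorem daug_slice' (hD : HasDaugavetProperty X) (v : X) (ψ : X →L[ℝ] ℝ) (x : X) (hx : ‖x‖ = 1)
    (ε : ℝ) (hε : 0 < ε) :
    ∃ z : X, ‖z‖ ≤ 1 ∧ ψ z ≤ ψ x + ε ∧ ‖v‖ + 1 - ε ≤ ‖v + z‖ := by
  obtain ⟨φ0, hφ0, -⟩ := exists_dual_vector ℝ x (by rw [hx]; norm_num)
  obtain ⟨u, hu, hvu⟩ := exists_unit_smul x hx v
  obtain ⟨φ, hφ, hψ⟩ := exists_unit_smul φ0 hφ0 (-ψ)
  rw [norm_neg] at hψ
  set a := ‖v‖ with ha
  set b := ‖ψ‖ with hb
  have ha0 : 0 ≤ a := norm_nonneg _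
  have hb0 : 0 ≤ b := norm_nonneg _
  set e := ε / (2 * (a + 1) + b) with he
  have hden : 0 < 2 * (a + 1) + b := by positivity
  have he0 : 0 < e := div_pos hε hden
  have hee : e * (2 * (a + 1) + b) = ε := div_mul_cancel₀ _ hden.ne'
  obtain ⟨z, hz, hz1, hz2⟩ := daug_slice hD u hu φ hφ e he0
  refine ⟨z, hz, ?_, ?_⟩
  · have h1 : ψ z = -(b * φ z) := by
      have := congrArg (fun f : X →L[ℝ] ℝ => f z) hψ
      simp only [neg_apply, smul_apply,
        smul_eq_mul] at this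
      linarith
    have h2 : -b ≤ ψ x := by
      have := ψ.le_opNorm x
      rw [hx, mul_one, Real.norm_eq_abs] at this
      exact (neg_le_neg this).trans (neg_abs_le _)
    have h3 : b * (1 - e) ≤ b * φ z := mul_le_mul_of_nonneg_left hz1 hb0
    nlinarith
  · rcases le_total 1 a with h1 | h1
    · have e1 : a • (u + z) = (v + z) + (a - 1) • z := by
        rw [hvu, smul_add, sub_smul, one_smul]; abel
      have h2 := norm_add_le (v + z) ((a - 1) • z)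
      rw [← e1, norm_smul, norm_smul, Real.norm_eq_abs, Real.norm_eq_abs, abs_of_nonneg ha0,
        abs_of_nonneg (by linarith)] at h2
      have h3 : a * (2 - 2 * e) ≤ a * ‖u + z‖ := mul_le_mul_of_nonneg_left hz2 ha0
      have h4 : (a - 1) * ‖z‖ ≤ (a - 1) * 1 := mul_le_mul_of_nonneg_left hz (by linarith)
      nlinarith
    · have e1 : u + z = (v + z) + (1 - a) • u := by
        rw [hvu, sub_smul, one_smul]; abel
      have h2 := norm_add_le (v + z) ((1 - a) • u)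
      rw [← e1, norm_smul, hu, Real.norm_eq_abs, abs_of_nonneg (by linarith)] at h2
      nlinarith

/-- Averaging: a point of the ball almost at distance two from `x` and close to `x` modulo the
kernel of `q`. -/
theorem daug_average (hD : HasDaugavetProperty X) {H : Type*} [NormedAddCommGroup H]
    [InnerProductSpace ℝ H] (q : X →L[ℝ] H) (x : X) (hx : ‖x‖ = 1) (ε : ℝ) (hε : 0 < ε) :
    ∃ z : X, ‖z‖ ≤ 1 ∧ ‖q (z - x)‖ ≤ ε ∧ 2 - ε ≤ ‖z - x‖ := by
  set C : ℝ := 4 * ‖q‖ ^ 2 + 2 * ε with hC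
  have hC0 : 0 < C := by positivity
  have ind : ∀ (n : ℝ), 0 ≤ n → ∀ i : ℕ, ∃ s : X, ‖s‖ ≤ i ∧ ‖q s - (i : ℝ) • q x‖ ^ 2 ≤ i * C ∧
      n + i * (1 - ε) ≤ ‖s - n • x‖ := by
    intro n hn i
    induction i with
    | zero =>
      refine ⟨0, by simp, by simp, ?_⟩
      simp [norm_smul, hx, abs_of_nonneg hn]
    | succ i ih =>
      obtain ⟨s, hs1, hs2, hs3⟩ := ih
      set err := q s - (i : ℝ) • q x with herr
      obtain ⟨z, hz1, hz2, hz3⟩ := daug_slice' hD (s - n • x) ((innerSL ℝ err).comp q) x hx ε hε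
      simp only [ContinuousLinearMap.comp_apply, innerSL_apply_apply] at hz2
      refine ⟨s + z, ?_, ?_, ?_⟩
      · push_cast
        exact (norm_add_le _ _).trans (by linarith)
      · have e1 : q (s + z) - ((i + 1 : ℕ) : ℝ) • q x = err + (q z - q x) := by
          rw [herr, map_add]; push_cast; rw [add_smul, one_smul]; abel
        rw [e1, norm_add_sq_real, inner_sub_right]
        have h1 : ‖q z - q x‖ ≤ 2 * ‖q‖ := by
          have a1 := q.le_opNorm z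
          have a2 := q.le_opNorm x
          have a3 := norm_sub_le (q z) (q x)
          have a4 : ‖q‖ * ‖z‖ ≤ ‖q‖ * 1 := mul_le_mul_of_nonneg_left hz1 (norm_nonneg _)
          rw [hx] at a2
          linarith
        have h2 : ‖q z - q x‖ ^ 2 ≤ (2 * ‖q‖) ^ 2 := by
          exact pow_le_pow_left₀ (norm_nonneg _) h1 2
        push_cast
        nlinarith
      · have e1 : s + z - n • x = s - n • x + z := by abel
        rw [e1]; push_cast; linarith
  obtain ⟨n, hn⟩ := exists_nat_gt (C / ε ^ 2)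
  have hn0 : (0 : ℝ) < n := lt_trans (by positivity) hn
  obtain ⟨s, hs1, hs2, hs3⟩ := ind n hn0.le n
  have hinv : 0 < (n : ℝ)⁻¹ := inv_pos.2 hn0
  refine ⟨(n : ℝ)⁻¹ • s, ?_, ?_, ?_⟩
  · rw [norm_smul, Real.norm_eq_abs, abs_of_pos hinv]
    calc (n : ℝ)⁻¹ * ‖s‖ ≤ (n : ℝ)⁻¹ * n := mul_le_mul_of_nonneg_left hs1 hinv.le
      _ = 1 := inv_mul_cancel₀ hn0.ne'
  · have e1 : q ((n : ℝ)⁻¹ • s - x) = (n : ℝ)⁻¹ • (q s - (n : ℝ) • q x) := by
      rw [map_sub, map_smul, smul_sub, smul_smul, inv_mul_cancel₀ hn0.ne', one_smul]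
    rw [e1, norm_smul, Real.norm_eq_abs, abs_of_pos hinv, inv_mul_le_iff₀ hn0]
    have h1 : C < n * ε ^ 2 := by rwa [div_lt_iff₀ (by positivity)] at hn
    have h2 : ‖q s - (n : ℝ) • q x‖ ^ 2 ≤ (n * ε) ^ 2 := by nlinarith
    exact (pow_le_pow_iff_left₀ (norm_nonneg _) (by positivity) two_ne_zero).1 h2
  · have e1 : (n : ℝ)⁻¹ • s - x = (n : ℝ)⁻¹ • (s - (n : ℝ) • x) := by
      rw [smul_sub, smul_smul, inv_mul_cancel₀ hn0.ne', one_smul]
    rw [e1, norm_smul, Real.norm_eq_abs, abs_of_pos hinv, le_inv_mul_iff₀ hn0]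
    linarith

variable [CompleteSpace X]

/-- The key consequence of the Daugavet property. -/
theorem daug_key (hD : HasDaugavetProperty X) (x : X) (hx : ‖x‖ = 1) (F : Set X)
    (hF : (mkB X).IsCof F) (η : ℝ) (hη : 0 < η) :
    ∃ y ∈ F, ‖y‖ = 1 ∧ ‖x + (2 : ℝ) • y‖ ≤ 1 + η := by
  obtain ⟨S, rfl, hcl, hfin⟩ := hF
  change Submodule ℝ X at S
  have : IsClosed (S : Set X) := hcl
  have : FiniteDimensional ℝ (X ⧸ S) := hfin
  let q0 : X →L[ℝ] (X ⧸ S) := ⟨S.mkQ, continuous_quotient_mk'⟩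
  let L := toEuclidean (E := X ⧸ S)
  set K : ℝ := ‖(L.symm : EuclideanSpace ℝ (Fin (Module.finrank ℝ (X ⧸ S))) →L[ℝ] (X ⧸ S))‖
    with hK
  have hK0 : 0 ≤ K := ContinuousLinearMap.opNorm_nonneg _
  set ε : ℝ := min (η / 3) (1 / 4) with hεdef
  have hε : 0 < ε := lt_min (by positivity) (by norm_num)
  have hε1 : ε ≤ η / 3 := min_le_left _ _
  have hε2 : ε ≤ 1 / 4 := min_le_right _ _
  set e : ℝ := ε / (2 * (K + 1)) with he
  have he0 : 0 < e := by positivity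
  have hee : e * (2 * (K + 1)) = ε := div_mul_cancel₀ _ (by positivity)
  obtain ⟨z, hz1, hz2, hz3⟩ := daug_average hD
    ((L : (X ⧸ S) →L[ℝ] EuclideanSpace ℝ (Fin (Module.finrank ℝ (X ⧸ S)))).comp q0) x hx e he0
  have h1 : ‖q0 (z - x)‖ ≤ ε / 2 := by
    have a1 := (L.symm : EuclideanSpace ℝ (Fin (Module.finrank ℝ (X ⧸ S))) →L[ℝ]
      (X ⧸ S)).le_opNorm (L (q0 (z - x)))
    simp only [ContinuousLinearEquiv.coe_coe, ContinuousLinearEquiv.symm_apply_apply] at a1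
    have a2 : ‖L (q0 (z - x))‖ ≤ e := hz2
    have a3 : K * ‖L (q0 (z - x))‖ ≤ K * e := mul_le_mul_of_nonneg_left a2 hK0
    nlinarith
  obtain ⟨m, hm, hm'⟩ := Submodule.Quotient.norm_mk_lt (q0 (z - x)) (half_pos hε)
  have hy0 : z - x - m ∈ S := (Submodule.Quotient.eq S).1 hm.symm
  set y0 := z - x - m with hy0def
  have hm1 : ‖m‖ ≤ ε := by linarith
  have hle : e ≤ ε := by nlinarith
  have hlo : 2 - 2 * ε ≤ ‖y0‖ := by
    have := norm_add_le y0 m
    rw [hy0def, sub_add_cancel] at this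
    linarith
  have hhi : ‖y0‖ ≤ 2 + ε := by
    have a1 := norm_sub_le (z - x) m
    have a2 := norm_sub_le z x
    linarith
  have hpos : 0 < ‖y0‖ := by linarith
  refine ⟨‖y0‖⁻¹ • y0, S.smul_mem _ hy0, ?_, ?_⟩
  · rw [norm_smul, norm_inv, norm_norm, inv_mul_cancel₀ hpos.ne']
  · have e1 : x + (2 : ℝ) • ‖y0‖⁻¹ • y0 = (z - m) + (2 - ‖y0‖) • (‖y0‖⁻¹ • y0) := by
      rw [sub_smul, smul_smul ‖y0‖, mul_inv_cancel₀ hpos.ne', one_smul]
      have : x = z - m - y0 := by rw [hy0def]; abel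
      rw [this]; abel
    have a1 := norm_add_le (z - m) ((2 - ‖y0‖) • (‖y0‖⁻¹ • y0))
    rw [← e1, norm_smul (2 - ‖y0‖), norm_smul ‖y0‖⁻¹, norm_inv, norm_norm,
      inv_mul_cancel₀ hpos.ne', mul_one, Real.norm_eq_abs] at a1
    have a2 := norm_sub_le z m
    have a3 : |2 - ‖y0‖| ≤ 2 * ε := abs_le.2 ⟨by linarith, by linarith⟩
    linarith

theorem daug_oneSided_le (hD : HasDaugavetProperty X) (x : X) (hx : ‖x‖ = 1) (F : Set X)
    (hF : (mkB X).IsCof F) (η : ℝ) (hη : 0 < η) (t : ℝ) (ht : 0 < t) :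
    ∃ y ∈ F, ‖y‖ = 1 ∧ ‖x + t • y‖ - 1 ≤ max 0 (t - 2) + η := by
  obtain ⟨y, hyF, hy, h⟩ := daug_key hD x hx F hF η hη
  refine ⟨y, hyF, hy, ?_⟩
  rcases le_total t 2 with h2 | h2
  · have e1 : x + t • y = (1 - t / 2) • x + (t / 2) • (x + (2 : ℝ) • y) := by
      rw [smul_add, ← add_assoc, ← add_smul, smul_smul]
      congr 1
      · simp
      · congr 1; ring
    have a1 := norm_add_le ((1 - t / 2) • x) ((t / 2) • (x + (2 : ℝ) • y))
    rw [← e1, norm_smul, norm_smul, hx, Real.norm_eq_abs, Real.norm_eq_abs,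
      abs_of_nonneg (by linarith), abs_of_nonneg (by linarith)] at a1
    have a2 : t / 2 * ‖x + (2 : ℝ) • y‖ ≤ t / 2 * (1 + η) :=
      mul_le_mul_of_nonneg_left h (by linarith)
    have a3 := le_max_left 0 (t - 2)
    nlinarith
  · have e1 : x + t • y = (x + (2 : ℝ) • y) + (t - 2) • y := by
      rw [sub_smul]; abel
    have a1 := norm_add_le (x + (2 : ℝ) • y) ((t - 2) • y)
    rw [← e1, norm_smul, hy, Real.norm_eq_abs, abs_of_nonneg (by linarith)] at a1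
    have a3 := le_max_right 0 (t - 2)
    linarith

theorem daug_midpoint_le (hD : HasDaugavetProperty X) (x : X) (hx : ‖x‖ = 1) (F : Set X)
    (hF : (mkB X).IsCof F) (η : ℝ) (hη : 0 < η) (t : ℝ) (ht : 0 < t) :
    ∃ y ∈ F, ‖y‖ = 1 ∧ (‖x + t • y‖ + ‖x - t • y‖) / 2 - 1 ≤ max (t / 2) (t - 1) + η := by
  obtain ⟨y, hyF, hy, h⟩ := daug_oneSided_le hD x hx F hF η hη t ht
  refine ⟨y, hyF, hy, ?_⟩
  have a1 := norm_sub_le x (t • y)
  rw [norm_smul, hy, hx, Real.norm_eq_abs, abs_of_pos ht] at a1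
  have a2 := le_max_left (t / 2) (t - 1)
  have a3 := le_max_right (t / 2) (t - 1)
  rcases le_total 0 (t - 2) with h2 | h2
  · rw [max_eq_right h2] at h; linarith
  · rw [max_eq_left h2] at h; linarith

theorem oneSided_ge (x : X) (hx : ‖x‖ = 1) (t : ℝ) (ht : 0 < t) :
    ∃ F : Set X, (mkB X).IsCof F ∧ ∀ y ∈ F, ‖y‖ = 1 → max 0 (t - 2) ≤ ‖x + t • y‖ - 1 := by
  obtain ⟨φ, hφ, hφx⟩ := exists_dual_vector ℝ x (by rw [hx]; norm_num)
  refine ⟨{y | φ y = 0}, isCof_ker φ, fun y hy hy1 => max_le ?_ ?_⟩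
  · have a1 := φ.le_opNorm (x + t • y)
    have hy' : φ y = 0 := hy
    rw [hφ, one_mul, map_add, map_smul, hy', smul_zero, add_zero, hφx, hx] at a1
    simp at a1
    linarith
  · have a1 := norm_sub_le (x + t • y) x
    rw [add_sub_cancel_left, norm_smul, hy1, hx, Real.norm_eq_abs, abs_of_pos ht] at a1
    linarith

theorem daug_not_isAUC (hD : HasDaugavetProperty X) (x0 : X) (hx0 : ‖x0‖ = 1)
    (N : X → ℝ) (hN : (mkB X).IsEquivNorm N) : ¬ (mkB X).IsAUC N := by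
  refine not_isAUC_of_trees 1 1 one_pos (fun _ => {x | ‖x‖ ≤ 1})
    (fun _ => ⟨x0, hx0.le, hx0.ge⟩) (fun _ x hx => hx) ?_ N hN
  intro _ x hx F hF ε hε
  have hx' : ‖x‖ ≤ 1 := hx
  obtain ⟨u, hu, hxu⟩ := exists_unit_smul x0 hx0 x
  obtain ⟨y, hyF, hy, h⟩ := daug_key hD u hu F hF ε hε
  have h1 : ‖x + y‖ ≤ 1 + ε := by
    have e1 : x + y = (‖x‖ - 1 / 2) • u + (1 / 2 : ℝ) • (u + (2 : ℝ) • y) := by
      rw [smul_add, ← add_assoc, ← add_smul, smul_smul]
      congr 1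
      · simpa using hxu
      · norm_num
    have a1 := norm_add_le ((‖x‖ - 1 / 2) • u) ((1 / 2 : ℝ) • (u + (2 : ℝ) • y))
    rw [← e1, norm_smul, norm_smul, hu, Real.norm_eq_abs, Real.norm_eq_abs,
      abs_of_pos (show (0 : ℝ) < 1 / 2 by norm_num)] at a1
    have a2 : |‖x‖ - 1 / 2| ≤ 1 / 2 := abs_le.2 ⟨by linarith [norm_nonneg x], by linarith⟩
    linarith
  have hpos : 0 < 1 + ε := by linarith
  refine ⟨y, hyF, hy.ge, (1 + ε)⁻¹ • (x + y), ?_, ?_⟩
  · change ‖(1 + ε)⁻¹ • (x + y)‖ ≤ 1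
    rw [norm_smul, Real.norm_eq_abs, abs_of_pos (inv_pos.2 hpos), inv_mul_le_iff₀ hpos]
    linarith
  · have e1 : x + y - (1 + ε)⁻¹ • (x + y) = (ε * (1 + ε)⁻¹) • (x + y) := by
      have : ε * (1 + ε)⁻¹ = 1 - (1 + ε)⁻¹ := by field_simp; ring
      rw [this, sub_smul, one_smul]
    rw [e1, norm_smul, Real.norm_eq_abs, abs_of_pos (by positivity), mul_assoc]
    have : (1 + ε)⁻¹ * ‖x + y‖ ≤ 1 := by rw [inv_mul_le_iff₀ hpos]; linarith
    nlinarith

end Crest.Agent.R125
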