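import Mathlib
import Crest.Prelude.Def_DaugavetL1
import Crest.Agent.R125.NoAUC

/-! The midpoint lower bound for subspaces of `L¹` whose ball is totally bounded in measure. -/

set_option autoImplicit false
open Crest.AnalysisR Crest.AnalysisR.L1Subspace MeasureTheory

namespace Crest.Agent.R125

variable {Ω : Type} [MeasurableSpace Ω] (P : Measure Ω)

/-- Integration against the sign pattern of a set `B`. -/
noncomputable def signFun (B : Set Ω) : Lp ℝ 1 P →L[ℝ] ℝ where
  toFun y := ∫ ω in B, y ω ∂P - ∫ ω in Bᶜ, y ω ∂P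
  map_add' y z := by
    have hy := L1.integrable_coeFn y
    have hz := L1.integrable_coeFn z
    have h : ∀ s : Set Ω, ∫ ω in s, (y + z) ω ∂P = ∫ ω in s, y ω ∂P + ∫ ω in s, z ω ∂P := by
      intro s
      rw [← integral_add hy.integrableOn hz.integrableOn]
      exact integral_congr_ae (ae_restrict_of_ae (Lp.coeFn_add y z))
    rw [h, h]; ring
  map_smul' c y := by
    have h : ∀ s : Set Ω, ∫ ω in s, (c • y) ω ∂P = c * ∫ ω in s, y ω ∂P := by
      intro s
      rw [← integral_const_mul]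
      exact integral_congr_ae (ae_restrict_of_ae (Lp.coeFn_smul c y))
    rw [h, h]; simp only [RingHom.id_apply, smul_eq_mul]; ring
  cont := (continuous_setIntegral B).sub (continuous_setIntegral Bᶜ)

theorem signFun_apply (B : Set Ω) (y : Lp ℝ 1 P) :
    signFun P B y = ∫ ω in B, y ω ∂P - ∫ ω in Bᶜ, y ω ∂P := rfl

theorem exists_small_setIntegral (x : Lp ℝ 1 P) (η : ℝ) (hη : 0 < η) :
    ∃ δ : ℝ, 0 < δ ∧ ∀ A : Set Ω, P A < ENNReal.ofReal δ → ∫ ω in A, |x ω| ∂P ≤ η := by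
  have hx := L1.integrable_coeFn x
  obtain ⟨δ, hδ, h⟩ := exists_pos_setLIntegral_lt_of_measure_lt (μ := P)
    (f := fun ω => ‖x ω‖ₑ) hx.2.ne (ε := ENNReal.ofReal η) (by simpa using hη)
  obtain ⟨δ', hδ'0, hδ'⟩ : ∃ δ' : ℝ, 0 < δ' ∧ ENNReal.ofReal δ' ≤ δ := by
    by_cases ht : δ = ⊤
    · exact ⟨1, one_pos, by simp [ht]⟩
    · exact ⟨δ.toReal, ENNReal.toReal_pos hδ.ne' ht, by rw [ENNReal.ofReal_toReal ht]⟩
  refine ⟨δ', hδ'0, fun A hA => ?_⟩
  have h1 := h A (hA.trans_le hδ')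
  have h2 : ∫ ω in A, |x ω| ∂P = (∫⁻ ω in A, ‖x ω‖ₑ ∂P).toReal := by
    rw [← integral_norm_eq_lintegral_enorm hx.1.restrict]; rfl
  rw [h2]
  exact ENNReal.toReal_le_of_le_ofReal hη.le h1.le

variable [IsProbabilityMeasure P]

theorem exists_lt_of_measureDist_lt (f g : Lp ℝ 1 P) (ε : ℝ) (h : measureDist P f g < ε) :
    ∃ a : ℝ, 0 < a ∧ a < ε ∧ P {z | a < |f z - g z|} < ENNReal.ofReal a := by
  have hne : {a : ℝ | 0 < a ∧ P {z | a < abs ((f : Ω → ℝ) z - (g : Ω → ℝ) z)} <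
      ENNReal.ofReal a}.Nonempty := by
    refine ⟨2, by norm_num, lt_of_le_of_lt prob_le_one ?_⟩
    rw [← ENNReal.ofReal_one]
    exact (ENNReal.ofReal_lt_ofReal_iff (by norm_num)).2 (by norm_num)
  obtain ⟨a, ⟨ha, ha'⟩, haε⟩ := exists_lt_of_csInf_lt hne h
  exact ⟨a, ha, haε, ha'⟩

theorem half_mass (y g : Lp ℝ 1 P) (a : ℝ) (ha : 0 < a) (hy : ‖y‖ = 1)
    (h0 : signFun P {ω | 0 ≤ g ω} y = 0) :
    1 / 2 - a ≤ ∫ ω in {z | a < |y z - g z|}, |y ω| ∂P := by
  have hym : Measurable y := (Lp.stronglyMeasurable y).measurable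
  have hgm : Measurable g := (Lp.stronglyMeasurable g).measurable
  set A : Set Ω := {z | a < |y z - g z|} with hA
  set B : Set Ω := {ω | 0 ≤ g ω} with hB
  have hAm : MeasurableSet A := measurableSet_lt measurable_const (hym.sub hgm).abs
  have hBm : MeasurableSet B := measurableSet_le measurable_const hgm
  have hyi := L1.integrable_coeFn y
  have hpt : ∀ ω, |y ω| ≤ (B.indicator y ω - Bᶜ.indicator y ω) + 2 * a
      + 2 * A.indicator (fun ω => |y ω|) ω := by
    intro ω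
    by_cases hωA : ω ∈ A <;> by_cases hωB : ω ∈ B
    · simp only [Set.indicator_of_mem hωA, Set.indicator_of_mem hωB,
        Set.indicator_of_notMem (Set.notMem_compl_iff.2 hωB)]
      have := neg_abs_le (y ω)
      linarith
    · simp only [Set.indicator_of_mem hωA, Set.indicator_of_notMem hωB,
        Set.indicator_of_mem (Set.mem_compl hωB)]
      have := le_abs_self (y ω)
      linarith
    · simp only [Set.indicator_of_notMem hωA, Set.indicator_of_mem hωB,
        Set.indicator_of_notMem (Set.notMem_compl_iff.2 hωB)]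
      have h1 : |y ω - g ω| ≤ a := not_lt.1 hωA
      have h2 : 0 ≤ g ω := hωB
      rw [abs_le] at h1
      rw [abs_le]; constructor <;> linarith
    · simp only [Set.indicator_of_notMem hωA, Set.indicator_of_notMem hωB,
        Set.indicator_of_mem (Set.mem_compl hωB)]
      have h1 : |y ω - g ω| ≤ a := not_lt.1 hωA
      have h2 : g ω < 0 := not_le.1 hωB
      rw [abs_le] at h1
      rw [abs_le]; constructor <;> linarith
  have i1 : Integrable (B.indicator y) P := hyi.indicator hBm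
  have i2 : Integrable (Bᶜ.indicator y) P := hyi.indicator hBm.compl
  have i3 : Integrable (A.indicator fun ω => |y ω|) P := hyi.abs.indicator hAm
  have hint := integral_mono hyi.abs (((i1.sub i2).add (integrable_const (2 * a))).add
    (i3.const_mul 2)) hpt
  have e1 : ∫ ω, |y ω| ∂P = 1 := by
    rw [← hy, L1.norm_eq_integral_norm]; rfl
  have e2 : ∫ ω, ((B.indicator y ω - Bᶜ.indicator y ω) + 2 * a
      + 2 * A.indicator (fun ω => |y ω|) ω) ∂P
      = (∫ ω in B, y ω ∂P - ∫ ω in Bᶜ, y ω ∂P) + 2 * a + 2 * ∫ ω in A, |y ω| ∂P := by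
    have j1 : Integrable (fun ω => B.indicator y ω - Bᶜ.indicator y ω) P := i1.sub i2
    have j2 : Integrable (fun ω => B.indicator y ω - Bᶜ.indicator y ω + 2 * a) P :=
      j1.add (integrable_const (2 * a))
    rw [integral_add j2 (i3.const_mul 2),
      integral_add j1 (integrable_const (2 * a)), integral_sub i1 i2,
      integral_const_mul, integral_const_mul, integral_indicator hBm, integral_indicator hBm.compl,
      integral_indicator hAm]
    simp
  rw [signFun_apply] at h0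
  have hint' : ∫ ω, |y ω| ∂P ≤ ∫ ω, ((B.indicator y ω - Bᶜ.indicator y ω) + 2 * a
      + 2 * A.indicator (fun ω => |y ω|) ω) ∂P := hint
  rw [e1, e2, h0] at hint'
  linarith

omit [IsProbabilityMeasure P] in
theorem midpoint_lower (x y : Lp ℝ 1 P) (t : ℝ) (ht : 0 < t) (A : Set Ω) (hAm : MeasurableSet A) :
    ‖x‖ - ∫ ω in A, |x ω| ∂P + t * ∫ ω in A, |y ω| ∂P ≤ (‖x + t • y‖ + ‖x - t • y‖) / 2 := by
  have hxi := L1.integrable_coeFn x
  have hyi := L1.integrable_coeFn y
  have e1 : ‖x + t • y‖ = ∫ ω, |x ω + t * y ω| ∂P := by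
    rw [L1.norm_eq_integral_norm]
    refine integral_congr_ae ?_
    filter_upwards [Lp.coeFn_add x (t • y), Lp.coeFn_smul t y] with ω h1 h2
    rw [h1, Pi.add_apply, h2]; rfl
  have e2 : ‖x - t • y‖ = ∫ ω, |x ω - t * y ω| ∂P := by
    rw [L1.norm_eq_integral_norm]
    refine integral_congr_ae ?_
    filter_upwards [Lp.coeFn_sub x (t • y), Lp.coeFn_smul t y] with ω h1 h2
    rw [h1, Pi.sub_apply, h2]; rfl
  have e3 : ‖x‖ = ∫ ω, |x ω| ∂P := by
    rw [L1.norm_eq_integral_norm]; rfl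
  have i1 : Integrable (fun ω => |x ω + t * y ω|) P := (hxi.add (hyi.const_mul t)).abs
  have i2 : Integrable (fun ω => |x ω - t * y ω|) P := (hxi.sub (hyi.const_mul t)).abs
  have i3 : Integrable (A.indicator fun ω => |x ω|) P := hxi.abs.indicator hAm
  have i4 : Integrable (A.indicator fun ω => |y ω|) P := hyi.abs.indicator hAm
  have hpt : ∀ ω, |x ω| - A.indicator (fun ω => |x ω|) ω + t * A.indicator (fun ω => |y ω|) ω ≤
      (|x ω + t * y ω| + |x ω - t * y ω|) / 2 := by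
    intro ω
    by_cases hω : ω ∈ A
    · simp only [Set.indicator_of_mem hω]
      have h1 := abs_sub (x ω + t * y ω) (x ω - t * y ω)
      have h2 : x ω + t * y ω - (x ω - t * y ω) = 2 * t * y ω := by ring
      rw [h2, abs_mul, abs_of_pos (by linarith : 0 < 2 * t)] at h1
      linarith
    · simp only [Set.indicator_of_notMem hω]
      have h1 := abs_add_le (x ω + t * y ω) (x ω - t * y ω)
      have h2 : x ω + t * y ω + (x ω - t * y ω) = 2 * x ω := by ring
      rw [h2, abs_mul, abs_two] at h1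
      linarith
  have hint : ∫ ω, (|x ω| - A.indicator (fun ω => |x ω|) ω
      + t * A.indicator (fun ω => |y ω|) ω) ∂P ≤
      ∫ ω, (|x ω + t * y ω| + |x ω - t * y ω|) / 2 ∂P :=
    integral_mono ((hxi.abs.sub i3).add (i4.const_mul t)) ((i1.add i2).div_const 2) hpt
  have j1 : Integrable (fun ω => |x ω| - A.indicator (fun ω => |x ω|) ω) P := hxi.abs.sub i3
  rw [integral_add j1 (i4.const_mul t), integral_sub hxi.abs i3,
    integral_const_mul, integral_indicator hAm, integral_indicator hAm, integral_div,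
    integral_add i1 i2] at hint
  rw [e1, e2, e3]
  exact hint

theorem midpoint_ge (E : Submodule ℝ (Lp ℝ 1 P)) [CompleteSpace E]
    (htb : UnitBallTotallyBoundedInMeasure P E) (t : ℝ) (ht : 0 < t) (x : E) (hx : ‖x‖ = 1)
    (η : ℝ) (hη : 0 < η) :
    ∃ F : Set E, (mkB E).IsCof F ∧ ∀ y ∈ F, ‖y‖ = 1 →
      max (t / 2) (t - 1) - η ≤ (‖x + t • y‖ + ‖x - t • y‖) / 2 - 1 := by
  obtain ⟨δ, hδ, hδx⟩ := exists_small_setIntegral P (x : Lp ℝ 1 P) (η / 2) (half_pos hη)
  set ε : ℝ := min δ (η / (2 * t)) with hεdef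
  have hε : 0 < ε := lt_min hδ (by positivity)
  obtain ⟨s, -, hs⟩ := htb ε hε
  let T : E →L[ℝ] (s → ℝ) :=
    ContinuousLinearMap.pi fun g : s =>
      (signFun P {ω | 0 ≤ (g : Lp ℝ 1 P) ω}).comp E.subtypeL
  refine ⟨{y | T y = 0}, isCof_ker T, fun y hy hy1 => ?_⟩
  have hyT : T y = 0 := hy
  have hy1' : ‖(y : Lp ℝ 1 P)‖ = 1 := hy1
  have hx' : ‖(x : Lp ℝ 1 P)‖ = 1 := hx
  obtain ⟨g, hg, hgy⟩ := hs y y.2 hy1'.le
  obtain ⟨a, ha, haε, hPa⟩ := exists_lt_of_measureDist_lt P _ _ ε hgy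
  have h0 : signFun P {ω | 0 ≤ g ω} (y : Lp ℝ 1 P) = 0 := congrFun hyT ⟨g, hg⟩
  have h1 := half_mass P (y : Lp ℝ 1 P) g a ha hy1' h0
  have hym : Measurable (y : Lp ℝ 1 P) := (Lp.stronglyMeasurable _).measurable
  have hgm : Measurable g := (Lp.stronglyMeasurable g).measurable
  have hAm : MeasurableSet {z | a < |(y : Lp ℝ 1 P) z - g z|} :=
    measurableSet_lt measurable_const (hym.sub hgm).abs
  have h2 := midpoint_lower P (x : Lp ℝ 1 P) (y : Lp ℝ 1 P) t ht _ hAm
  have h3 := hδx _ (hPa.trans_le (ENNReal.ofReal_le_ofReal (haε.le.trans (min_le_left _ _))))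
  have e1 : ‖x + t • y‖ = ‖(x : Lp ℝ 1 P) + t • (y : Lp ℝ 1 P)‖ := rfl
  have e2 : ‖x - t • y‖ = ‖(x : Lp ℝ 1 P) - t • (y : Lp ℝ 1 P)‖ := rfl
  have h4 : t * a ≤ η / 2 := by
    have : a ≤ η / (2 * t) := haε.le.trans (min_le_right _ _)
    rw [le_div_iff₀ (by positivity)] at this
    linarith
  have h5 : t * (1 / 2 - a) ≤ t * ∫ ω in {z | a < |(y : Lp ℝ 1 P) z - g z|},
      |(y : Lp ℝ 1 P) ω| ∂P := mul_le_mul_of_nonneg_left h1 ht.le
  have h6 : 2 * t ≤ ‖x + t • y‖ + ‖x - t • y‖ := by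
    have a1 := norm_sub_le (x + t • y) (x - t • y)
    have a2 : x + t • y - (x - t • y) = (2 * t) • y := by
      rw [mul_smul, two_smul]; abel
    rw [a2, norm_smul, hy1, Real.norm_eq_abs, abs_of_pos (by linarith)] at a1
    linarith
  rw [← e1, ← e2, hx'] at h2
  rw [sub_le_iff_le_add]
  refine max_le ?_ ?_ <;> linarith

end Crest.Agent.R125
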