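import Mathlib

/-! The key property used for statement S0166. -/

set_option autoImplicit false

namespace Crest.Agent.R125

/-- Key property: finite-rank contractive projections with a midpoint inequality. -/
def KP (X : Type) [NormedAddCommGroup X] [NormedSpace ℝ X] : Prop := ∀ (x : X) (ε : ℝ), 0 < ε → ∃ P : X →L[ℝ] X, FiniteDimensional ℝ (LinearMap.range (P : X →ₗ[ℝ] X)) ∧ ‖x - P x‖ < ε ∧ (∀ w, ‖P w‖ ≤ ‖w‖) ∧ (∀ w, P (P w) = P w) ∧ ∀ w : X, 2 * ‖P x‖ ^ 2 + ‖w - P w‖ ^ 2 / 2 ≤ ‖P x + w‖ ^ 2 + ‖P x - w‖ ^ 2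

end Crest.Agent.R125
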