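import Mathlib
import Crest.Prelude.Def_Diamond
import Crest.Agent.R125.NoAUC
import Crest.Agent.R125.KPDef

/-! The key property gives the three moduli bounds and the diamond distortion bound. -/

set_option autoImplicit false
open Crest.AnalysisR

namespace Crest.Agent.R125

section moduli

variable {X : Type} [NormedAddCommGroup X] [NormedSpace ℝ X] [CompleteSpace X]

theorem kp_sqrt_le {m r c ε : ℝ} (hr : 0 ≤ r) (hmr : r ≤ m) (hε : 0 ≤ ε) (h1 : 1 ≤ r + ε)
    (hm : r ^ 2 + c ≤ m ^ 2) : Real.sqrt (1 + c) ≤ m + ε := by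
  apply Real.sqrt_le_iff.2
  refine ⟨by linarith, ?_⟩
  nlinarith [mul_le_mul_of_nonneg_right hmr hε]

theorem kp_core (h : KP X) (t : ℝ) (x : X) (hx : ‖x‖ = 1) (ε : ℝ) (hε : 0 < ε) :
    ∃ F : Set X, (mkB X).IsCof F ∧ ∀ y ∈ F, ‖y‖ = 1 → ∃ r a b : ℝ, 0 ≤ r ∧ r ≤ a ∧ r ≤ b ∧
      1 ≤ r + ε ∧ 2 * r ^ 2 + t ^ 2 / 2 ≤ a ^ 2 + b ^ 2 ∧ a ≤ ‖x + t • y‖ + ε ∧
      b ≤ ‖x - t • y‖ + ε := by
  obtain ⟨P, hfin, hxP, hcon, hidem, hkey⟩ := h x ε hε
  refine ⟨{y : X | P y = 0}, isCof_ker_of_range P, ?_⟩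
  intro y hy hy1
  have hy0 : P y = 0 := hy
  refine ⟨‖P x‖, ‖P x + t • y‖, ‖P x - t • y‖, norm_nonneg _, ?_, ?_, ?_, ?_, ?_, ?_⟩
  · have := hcon (P x + t • y)
    rwa [map_add, map_smul, hy0, smul_zero, add_zero, hidem] at this
  · have := hcon (P x - t • y)
    rwa [map_sub, map_smul, hy0, smul_zero, sub_zero, hidem] at this
  · have : ‖x‖ ≤ ‖P x‖ + ‖x - P x‖ := by
      calc ‖x‖ = ‖P x + (x - P x)‖ := by congr 1; abel
        _ ≤ _ := norm_add_le _ _
    linarith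
  · have := hkey (t • y)
    rwa [map_smul, hy0, smul_zero, sub_zero, norm_smul, hy1, mul_one, Real.norm_eq_abs,
      sq_abs] at this
  · have : ‖P x + t • y‖ ≤ ‖x + t • y‖ + ‖x - P x‖ := by
      calc ‖P x + t • y‖ = ‖(x + t • y) - (x - P x)‖ := by congr 1; abel
        _ ≤ _ := norm_sub_le _ _
    linarith
  · have : ‖P x - t • y‖ ≤ ‖x - t • y‖ + ‖x - P x‖ := by
      calc ‖P x - t • y‖ = ‖(x - t • y) - (x - P x)‖ := by congr 1; abel
        _ ≤ _ := norm_sub_le _ _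
    linarith

theorem kp_max {r a b t ε : ℝ} (hr : 0 ≤ r) (ha : r ≤ a) (hb : r ≤ b) (hε : 0 ≤ ε)
    (h1 : 1 ≤ r + ε) (hab : 2 * r ^ 2 + t ^ 2 / 2 ≤ a ^ 2 + b ^ 2) :
    Real.sqrt (1 + t ^ 2 / 4) ≤ max a b + ε := by
  apply kp_sqrt_le hr (ha.trans (le_max_left _ _)) hε h1
  have h2 : a ^ 2 ≤ (max a b) ^ 2 := pow_le_pow_left₀ (hr.trans ha) (le_max_left _ _) 2
  have h3 : b ^ 2 ≤ (max a b) ^ 2 := pow_le_pow_left₀ (hr.trans hb) (le_max_right _ _) 2
  linarith

theorem KP.moduli (h : KP X) (t : ℝ) (_ht : 0 < t) :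
    (mkB X).MidpointModulusGE (mkB X).norm t (Real.sqrt (1 + t ^ 2 / 12) - 1) ∧
    (mkB X).MidpointModulusGE (mkB X).norm t ((Real.sqrt (1 + t ^ 2 / 4) - 1) / 2) ∧
    (mkB X).MaxMidpointModulusGE (mkB X).norm t (Real.sqrt (1 + t ^ 2 / 4) - 1) := by
  refine ⟨?_, ?_, ?_⟩
  · intro x hx η hη
    obtain ⟨F, hF, hFy⟩ := kp_core h t x hx (η / 2) (half_pos hη)
    refine ⟨F, hF, fun y hy hy1 => ?_⟩
    obtain ⟨r, a, b, hr, ha, hb, h1, hab, ha', hb'⟩ := hFy y hy hy1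
    change _ ≤ (‖x + t • y‖ + ‖x - t • y‖) / 2 - 1
    have h2 : Real.sqrt (1 + t ^ 2 / 12) ≤ (a + b) / 2 + η / 2 := by
      apply kp_sqrt_le hr (by linarith) (half_pos hη).le h1
      nlinarith [mul_le_mul ha hb hr (hr.trans ha), sq_nonneg t]
    linarith
  · intro x hx η hη
    obtain ⟨F, hF, hFy⟩ := kp_core h t x hx (η / 2) (half_pos hη)
    refine ⟨F, hF, fun y hy hy1 => ?_⟩
    obtain ⟨r, a, b, hr, ha, hb, h1, hab, ha', hb'⟩ := hFy y hy hy1
    change _ ≤ (‖x + t • y‖ + ‖x - t • y‖) / 2 - 1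
    have h2 := kp_max hr ha hb (half_pos hη).le h1 hab
    have h3 : max a b + r ≤ a + b := by
      rcases le_total a b with h | h
      · rw [max_eq_right h]; linarith
      · rw [max_eq_left h]; linarith
    linarith
  · intro x hx η hη
    obtain ⟨F, hF, hFy⟩ := kp_core h t x hx (η / 2) (half_pos hη)
    refine ⟨F, hF, fun y hy hy1 => ?_⟩
    obtain ⟨r, a, b, hr, ha, hb, h1, hab, ha', hb'⟩ := hFy y hy hy1
    change _ ≤ max ‖x + t • y‖ ‖x - t • y‖ - 1
    have h2 := kp_max hr ha hb (half_pos hη).le h1 hab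
    have h3 : max a b ≤ max ‖x + t • y‖ ‖x - t • y‖ + η / 2 := by
      apply max_le
      · linarith [le_max_left ‖x + t • y‖ ‖x - t • y‖]
      · linarith [le_max_right ‖x + t • y‖ ‖x - t • y‖]
    linarith

end moduli

section graph

theorem dm_src_ne_tgt : ∀ (k : ℕ) (e : DiamondEdge k), diamondSrc k e ≠ diamondTgt k e
  | 0, _ => Bool.false_ne_true
  | k + 1, (e, i, b) => by
    cases b
    · exact Sum.inl_ne_inr
    · exact Sum.inr_ne_inl

theorem dm_adj (k : ℕ) (e : DiamondEdge k) :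
    (diamondGraph k).Adj (diamondSrc k e) (diamondTgt k e) := by
  rw [diamondGraph, SimpleGraph.fromRel_adj]
  exact ⟨dm_src_ne_tgt k e, Or.inl ⟨e, rfl, rfl⟩⟩

theorem dm_adj_iff {k : ℕ} {u v : DiamondVertex k} (h : (diamondGraph k).Adj u v) :
    ∃ e : DiamondEdge k, (diamondSrc k e = u ∧ diamondTgt k e = v) ∨
      (diamondSrc k e = v ∧ diamondTgt k e = u) := by
  rw [diamondGraph, SimpleGraph.fromRel_adj] at h
  rcases h.2 with ⟨e, he⟩ | ⟨e, he⟩
  · exact ⟨e, Or.inl he⟩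
  · exact ⟨e, Or.inr he⟩

/-- old vertices -/
def dmL {k : ℕ} (u : DiamondVertex k) : DiamondVertex (k + 1) := Sum.inl u

/-- new vertices -/
def dmR {k : ℕ} (e : DiamondEdge k) (i : ℕ) : DiamondVertex (k + 1) := Sum.inr (e, i)

/-- new edges -/
def dmE {k : ℕ} (e : DiamondEdge k) (i : ℕ) (b : Bool) : DiamondEdge (k + 1) := (e, i, b)

theorem dm_src_false {k : ℕ} (e : DiamondEdge k) (i : ℕ) :
    diamondSrc (k + 1) (dmE e i false) = dmL (diamondSrc k e) := rfl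
theorem dm_tgt_false {k : ℕ} (e : DiamondEdge k) (i : ℕ) :
    diamondTgt (k + 1) (dmE e i false) = dmR e i := rfl
theorem dm_src_true {k : ℕ} (e : DiamondEdge k) (i : ℕ) :
    diamondSrc (k + 1) (dmE e i true) = dmR e i := rfl
theorem dm_tgt_true {k : ℕ} (e : DiamondEdge k) (i : ℕ) :
    diamondTgt (k + 1) (dmE e i true) = dmL (diamondTgt k e) := rfl

theorem dm_reach_edge {k : ℕ} (e : DiamondEdge k) :
    (diamondGraph (k + 1)).Reachable (dmL (diamondSrc k e)) (dmL (diamondTgt k e)) :=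
  (dm_adj (k + 1) (dmE e 0 false)).reachable.trans (dm_adj (k + 1) (dmE e 0 true)).reachable

theorem dm_reach_lift {k : ℕ} {u v : DiamondVertex k} (h : (diamondGraph k).Reachable u v) :
    (diamondGraph (k + 1)).Reachable (dmL u) (dmL v) := by
  obtain ⟨p⟩ := h
  induction p with
  | nil => exact SimpleGraph.Reachable.refl _
  | cons hadj _ ih =>
    refine SimpleGraph.Reachable.trans ?_ ih
    obtain ⟨e, ⟨rfl, rfl⟩ | ⟨rfl, rfl⟩⟩ := dm_adj_iff hadj
    · exact dm_reach_edge e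
    · exact (dm_reach_edge e).symm

theorem dm_reach : ∀ (k : ℕ) (u v : DiamondVertex k), (diamondGraph k).Reachable u v
  | 0, u, v => by
    have h : (diamondGraph 0).Reachable false true := (dm_adj 0 ()).reachable
    cases u <;> cases v
    · exact SimpleGraph.Reachable.refl _
    · exact h
    · exact h.symm
    · exact SimpleGraph.Reachable.refl _
  | k + 1, u, v => by
    have key : ∀ w : DiamondVertex (k + 1), ∃ w' : DiamondVertex k,
        (diamondGraph (k + 1)).Reachable (dmL w') w := by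
      rintro (w | ⟨e, i⟩)
      · exact ⟨w, SimpleGraph.Reachable.refl _⟩
      · exact ⟨diamondSrc k e, (dm_adj (k + 1) (dmE e i false)).reachable⟩
    obtain ⟨u', hu⟩ := key u
    obtain ⟨v', hv⟩ := key v
    exact hu.symm.trans ((dm_reach_lift (dm_reach k u' v')).trans hv)

theorem dm_potential {V : Type*} {G : SimpleGraph V} (ρ : V → ℕ)
    (hρ : ∀ a b, G.Adj a b → ρ b ≤ ρ a + 1) {a b : V} (h : G.Reachable a b) :
    ρ b ≤ ρ a + G.dist a b := by
  obtain ⟨p, hp⟩ := h.exists_walk_length_eq_dist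
  rw [← hp]
  clear hp h
  induction p with
  | nil => simp
  | cons hadj p ih =>
    have := hρ _ _ hadj
    rw [SimpleGraph.Walk.length_cons]
    omega

theorem dm_dist_adj {k : ℕ} (u : DiamondVertex k) {a b : DiamondVertex k}
    (h : (diamondGraph k).Adj a b) : diamondDist k u b ≤ diamondDist k u a + 1 := by
  obtain ⟨p, hp⟩ := (dm_reach k u a).exists_walk_length_eq_dist
  have := SimpleGraph.dist_le (p.concat h)
  rw [SimpleGraph.Walk.length_concat, hp] at this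
  exact this

theorem dm_dist_self {k : ℕ} (u : DiamondVertex k) : diamondDist k u u = 0 :=
  SimpleGraph.dist_self

theorem dm_dist_lift {k : ℕ} (u v : DiamondVertex k) :
    2 * diamondDist k u v ≤ diamondDist (k + 1) (dmL u) (dmL v) := by
  let ρ : DiamondVertex (k + 1) → ℕ := fun w => match w with
    | Sum.inl w => 2 * diamondDist k u w
    | Sum.inr (e, _) => diamondDist k u (diamondSrc k e) + diamondDist k u (diamondTgt k e)
  have hL : ∀ w, ρ (dmL w) = 2 * diamondDist k u w := fun _ => rfl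
  have hR : ∀ e i, ρ (dmR e i) =
      diamondDist k u (diamondSrc k e) + diamondDist k u (diamondTgt k e) := fun _ _ => rfl
  have hedge : ∀ e : DiamondEdge (k + 1),
      ρ (diamondTgt (k + 1) e) ≤ ρ (diamondSrc (k + 1) e) + 1 ∧
      ρ (diamondSrc (k + 1) e) ≤ ρ (diamondTgt (k + 1) e) + 1 := by
    rintro ⟨e, i, b⟩
    have h1 := dm_dist_adj u (dm_adj k e)
    have h2 := dm_dist_adj u (dm_adj k e).symm
    cases b
    · change ρ (diamondTgt (k + 1) (dmE e i false)) ≤ ρ (diamondSrc (k + 1) (dmE e i false)) + 1 ∧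
        ρ (diamondSrc (k + 1) (dmE e i false)) ≤ ρ (diamondTgt (k + 1) (dmE e i false)) + 1
      rw [dm_src_false, dm_tgt_false, hL, hR]
      omega
    · change ρ (diamondTgt (k + 1) (dmE e i true)) ≤ ρ (diamondSrc (k + 1) (dmE e i true)) + 1 ∧
        ρ (diamondSrc (k + 1) (dmE e i true)) ≤ ρ (diamondTgt (k + 1) (dmE e i true)) + 1
      rw [dm_src_true, dm_tgt_true, hL, hR]
      omega
  have hρ : ∀ a b, (diamondGraph (k + 1)).Adj a b → ρ b ≤ ρ a + 1 := by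
    intro a b hab
    obtain ⟨e, ⟨rfl, rfl⟩ | ⟨rfl, rfl⟩⟩ := dm_adj_iff hab
    · exact (hedge e).1
    · exact (hedge e).2
  have := dm_potential ρ hρ (dm_reach (k + 1) (dmL u) (dmL v))
  rw [hL, hL, dm_dist_self] at this
  simpa [diamondDist] using this

theorem dm_dist_mid {k : ℕ} (e : DiamondEdge k) {i j : ℕ} (hij : i ≠ j) :
    2 ≤ diamondDist (k + 1) (dmR e i) (dmR e j) := by
  have hne : dmR e i ≠ dmR e j := by
    intro h
    have := Sum.inr_injective h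
    exact hij (congrArg Prod.snd this)
  have h0 : diamondDist (k + 1) (dmR e i) (dmR e j) ≠ 0 := by
    intro h
    rcases SimpleGraph.dist_eq_zero_iff_eq_or_not_reachable.1 h with h | h
    · exact hne h
    · exact h (dm_reach _ _ _)
  have h1 : diamondDist (k + 1) (dmR e i) (dmR e j) ≠ 1 := by
    intro h
    have hadj := SimpleGraph.dist_eq_one_iff_adj.1 h
    obtain ⟨⟨e', i', b⟩, ⟨h1, h2⟩ | ⟨h1, h2⟩⟩ := dm_adj_iff hadj
    · cases b
      · exact Sum.inl_ne_inr h1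
      · exact Sum.inl_ne_inr h2
    · cases b
      · exact Sum.inl_ne_inr h1
      · exact Sum.inl_ne_inr h2
  omega

/-- the two poles -/
def dmPole (b : Bool) : (k : ℕ) → DiamondVertex k
  | 0 => b
  | k + 1 => dmL (dmPole b k)

theorem dm_dist_pole : ∀ k : ℕ, 2 ^ k ≤ diamondDist k (dmPole false k) (dmPole true k)
  | 0 => by
    have h : diamondDist 0 (dmPole false 0) (dmPole true 0) = 1 :=
      SimpleGraph.dist_eq_one_iff_adj.2 (dm_adj 0 ())
    simp [h]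
  | k + 1 => by
    have h1 := dm_dist_pole k
    have h2 := dm_dist_lift (dmPole false k) (dmPole true k)
    change 2 ^ (k + 1) ≤ diamondDist (k + 1) (dmL (dmPole false k)) (dmL (dmPole true k))
    rw [pow_succ]
    omega

theorem dm_dist_edge (k : ℕ) (e : DiamondEdge k) :
    diamondDist k (diamondSrc k e) (diamondTgt k e) = 1 :=
  SimpleGraph.dist_eq_one_iff_adj.2 (dm_adj k e)

/-- some edge -/
def dmEdge0 : (k : ℕ) → DiamondEdge k
  | 0 => ()
  | k + 1 => dmE (dmEdge0 k) 0 false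

end graph

section diamond

variable {X : Type} [NormedAddCommGroup X] [NormedSpace ℝ X]

theorem kp_close (P : X →L[ℝ] X)
    (hfin : FiniteDimensional ℝ (LinearMap.range (P : X →ₗ[ℝ] X))) (w : ℕ → X) (C : ℝ)
    (hw : ∀ i, ‖P (w i)‖ ≤ C) (ε : ℝ) (hε : 0 < ε) :
    ∃ i j, i ≠ j ∧ ‖P (w i) - P (w j)‖ < ε := by
  let R := LinearMap.range (P : X →ₗ[ℝ] X)
  have : ProperSpace R := FiniteDimensional.proper_real R
  let u : ℕ → R := fun i => ⟨P (w i), ⟨w i, rfl⟩⟩
  have hu : ∀ i, u i ∈ Metric.closedBall (0 : R) C := by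
    intro i
    rw [mem_closedBall_zero_iff]
    exact hw i
  obtain ⟨a, -, φ, hφ, hlim⟩ := tendsto_subseq_of_bounded Metric.isBounded_closedBall hu
  have hc := Metric.cauchySeq_iff.1 hlim.cauchySeq ε hε
  obtain ⟨N, hN⟩ := hc
  refine ⟨φ N, φ (N + 1), (hφ (Nat.lt_succ_self N)).ne, ?_⟩
  have := hN N le_rfl (N + 1) (Nat.le_succ N)
  rw [dist_eq_norm] at this
  exact this

theorem kp_sq_lower {p q ε : ℝ} (hp : 0 ≤ p) (hq : 0 ≤ q) (hε : 0 ≤ ε) (h : q ≤ p + ε) :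
    q ^ 2 - 2 * ε * q ≤ p ^ 2 := by
  rcases le_total q ε with h1 | h1
  · nlinarith
  · nlinarith

theorem kp_step (h : KP X) (a b : X) (z : ℕ → X) (s M : ℝ) (hs : 0 ≤ s)
    (hz : ∀ i j, i ≠ j → 2 * s ≤ ‖z i - z j‖) (ha : ∀ i, ‖a - z i‖ ^ 2 ≤ M)
    (hb : ∀ i, ‖z i - b‖ ^ 2 ≤ M) : ‖a - b‖ ^ 2 / 4 + s ^ 2 / 4 ≤ M := by
  have hM : 0 ≤ M := (sq_nonneg _).trans (ha 0)
  set m := Real.sqrt M with hm
  have hm0 : 0 ≤ m := Real.sqrt_nonneg _
  have hm2 : m ^ 2 = M := Real.sq_sqrt hM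
  have ha' : ∀ i, ‖a - z i‖ ≤ m := fun i => Real.le_sqrt_of_sq_le (ha i)
  have hb' : ∀ i, ‖z i - b‖ ≤ m := fun i => Real.le_sqrt_of_sq_le (hb i)
  set x : X := (1 / 2 : ℝ) • (b - a) with hx
  set w : ℕ → X := fun i => z i - (1 / 2 : ℝ) • (a + b) with hw
  have hxn : ‖a - b‖ = 2 * ‖x‖ := by
    rw [hx, norm_smul, norm_sub_rev]; simp
  have hp : ∀ i, ‖x + w i‖ ≤ m := by
    intro i
    have : x + w i = -(a - z i) := by simp only [hx, hw]; module
    rw [this, norm_neg]; exact ha' i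
  have hq : ∀ i, ‖x - w i‖ ≤ m := by
    intro i
    have : x - w i = -(z i - b) := by simp only [hx, hw]; module
    rw [this, norm_neg]; exact hb' i
  have hwb : ∀ i, ‖w i‖ ≤ m + ‖x‖ := by
    intro i
    calc ‖w i‖ = ‖(x + w i) - x‖ := by congr 1; abel
      _ ≤ ‖x + w i‖ + ‖x‖ := norm_sub_le _ _
      _ ≤ _ := by linarith [hp i]
  have key : ∀ ε : ℝ, 0 < ε → ε ≤ 1 →
      ‖x‖ ^ 2 + s ^ 2 / 4 ≤ M + ε * (2 * ‖x‖ + s + 2 * m + 1) := by
    intro ε hε hε1
    obtain ⟨P, hfin, hxP, hcon, -, hkey⟩ := h x ε hε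
    obtain ⟨i, j, hij, hclose⟩ := kp_close P hfin w (m + ‖x‖)
      (fun i => (hcon _).trans (hwb i)) ε hε
    have h1 : 2 * s ≤ ‖w i - P (w i)‖ + ‖w j - P (w j)‖ + ε := by
      have e : z i - z j = (w i - P (w i)) - (w j - P (w j)) + (P (w i) - P (w j)) := by
        simp only [hw]; abel
      have h2 := hz i j hij
      rw [e] at h2
      have h3 := norm_add_le ((w i - P (w i)) - (w j - P (w j))) (P (w i) - P (w j))
      have h4 := norm_sub_le (w i - P (w i)) (w j - P (w j))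
      linarith
    obtain ⟨l, hl⟩ : ∃ l, s ≤ ‖w l - P (w l)‖ + ε := by
      rcases le_total ‖w i - P (w i)‖ ‖w j - P (w j)‖ with h2 | h2
      · exact ⟨j, by linarith⟩
      · exact ⟨i, by linarith⟩
    have h2 := hkey (w l)
    have h3 : ‖P x + w l‖ ≤ m + ε := by
      calc ‖P x + w l‖ = ‖(x + w l) - (x - P x)‖ := by congr 1; abel
        _ ≤ ‖x + w l‖ + ‖x - P x‖ := norm_sub_le _ _
        _ ≤ _ := by linarith [hp l]
    have h4 : ‖P x - w l‖ ≤ m + ε := by
      calc ‖P x - w l‖ = ‖(x - w l) - (x - P x)‖ := by congr 1; abel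
        _ ≤ ‖x - w l‖ + ‖x - P x‖ := norm_sub_le _ _
        _ ≤ _ := by linarith [hq l]
    have h5 : ‖x‖ ≤ ‖P x‖ + ε := by
      calc ‖x‖ = ‖P x + (x - P x)‖ := by congr 1; abel
        _ ≤ ‖P x‖ + ‖x - P x‖ := norm_add_le _ _
        _ ≤ _ := by linarith
    have h6 := kp_sq_lower (norm_nonneg _) (norm_nonneg x) hε.le h5
    have h7 := kp_sq_lower (norm_nonneg _) hs hε.le hl
    have h8 : ‖P x + w l‖ ^ 2 ≤ (m + ε) ^ 2 := pow_le_pow_left₀ (norm_nonneg _) h3 2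
    have h9 : ‖P x - w l‖ ^ 2 ≤ (m + ε) ^ 2 := pow_le_pow_left₀ (norm_nonneg _) h4 2
    have h10 : ε * ε ≤ ε * 1 := mul_le_mul_of_nonneg_left hε1 hε.le
    have h11 : 0 ≤ ε * s := mul_nonneg hε.le hs
    nlinarith
  rw [hxn]
  have hK : 0 < 2 * ‖x‖ + s + 2 * m + 1 := by positivity
  have hfinal : ‖x‖ ^ 2 + s ^ 2 / 4 ≤ M := by
    apply le_of_forall_pos_le_add
    intro δ hδ
    have h1 := key (min 1 (δ / (2 * ‖x‖ + s + 2 * m + 1))) (lt_min one_pos (div_pos hδ hK))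
      (min_le_left _ _)
    have h2 : min 1 (δ / (2 * ‖x‖ + s + 2 * m + 1)) * (2 * ‖x‖ + s + 2 * m + 1) ≤ δ := by
      calc _ ≤ δ / (2 * ‖x‖ + s + 2 * m + 1) * (2 * ‖x‖ + s + 2 * m + 1) :=
            mul_le_mul_of_nonneg_right (min_le_right _ _) hK.le
        _ = δ := div_mul_cancel₀ _ hK.ne'
    linarith
  nlinarith

theorem kp_claim (h : KP X) : ∀ (k : ℕ) (f : DiamondVertex k → X) (s M : ℝ), 0 ≤ s →
    (∀ u v, s * (diamondDist k u v : ℝ) ≤ ‖f u - f v‖) →
    (∀ e, ‖f (diamondSrc k e) - f (diamondTgt k e)‖ ^ 2 ≤ M) →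
    ‖f (dmPole false k) - f (dmPole true k)‖ ^ 2 / 4 ^ k + k * s ^ 2 / 4 ≤ M
  | 0, f, s, M, _, _, hM => by
    have : ‖f (dmPole false 0) - f (dmPole true 0)‖ ^ 2 ≤ M := hM ()
    simpa using this
  | k + 1, f, s, M, hs, hlow, hM => by
    have ih := kp_claim h k (fun u => f (dmL u)) (2 * s) (4 * M - s ^ 2) (by linarith)
      (fun u v => by
        have h1 := hlow (dmL u) (dmL v)
        have h2 : ((2 * diamondDist k u v : ℕ) : ℝ) ≤ diamondDist (k + 1) (dmL u) (dmL v) := by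
          exact_mod_cast dm_dist_lift u v
        push_cast at h2
        nlinarith [mul_le_mul_of_nonneg_left h2 hs])
      (fun e => by
        have := kp_step h (f (dmL (diamondSrc k e))) (f (dmL (diamondTgt k e)))
          (fun i => f (dmR e i)) s M hs
          (fun i j hij => by
            have h1 := hlow (dmR e i) (dmR e j)
            have h2 : ((2 : ℕ) : ℝ) ≤ diamondDist (k + 1) (dmR e i) (dmR e j) := by
              exact_mod_cast dm_dist_mid e hij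
            push_cast at h2
            nlinarith [mul_le_mul_of_nonneg_left h2 hs])
          (fun i => hM (dmE e i false)) (fun i => hM (dmE e i true))
        linarith)
    change ‖f (dmL (dmPole false k)) - f (dmL (dmPole true k))‖ ^ 2 / 4 ^ (k + 1)
      + ((k + 1 : ℕ) : ℝ) * s ^ 2 / 4 ≤ M
    rw [pow_succ (4 : ℝ), ← div_div]
    push_cast
    nlinarith

theorem KP.diamond [CompleteSpace X] (h : KP X) (k : ℕ) (f : DiamondVertex k → X) (D : ℝ)
    (hD : (mkB X).HasDistortionLE k f D) : 1 + (k : ℝ) / 4 ≤ D ^ 2 := by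
  obtain ⟨s, hs, hf⟩ := hD
  change ∀ u v : DiamondVertex k, s * (diamondDist k u v : ℝ) ≤ ‖f u - f v‖ ∧
    ‖f u - f v‖ ≤ D * s * (diamondDist k u v : ℝ) at hf
  have h1 := kp_claim h k f s ((D * s) ^ 2) hs.le (fun u v => (hf u v).1) (fun e => by
    have h2 := (hf (diamondSrc k e) (diamondTgt k e)).2
    rw [dm_dist_edge] at h2
    exact pow_le_pow_left₀ (norm_nonneg _) (by simpa using h2) 2)
  have h2 : s * 2 ^ k ≤ ‖f (dmPole false k) - f (dmPole true k)‖ := by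
    refine le_trans ?_ (hf _ _).1
    apply mul_le_mul_of_nonneg_left _ hs.le
    exact_mod_cast dm_dist_pole k
  have h3 : s ^ 2 ≤ ‖f (dmPole false k) - f (dmPole true k)‖ ^ 2 / 4 ^ k := by
    rw [le_div_iff₀ (by positivity)]
    have h4 : (s * 2 ^ k) ^ 2 ≤ _ := pow_le_pow_left₀ (by positivity) h2 2
    have h5 : (s * 2 ^ k) ^ 2 = s ^ 2 * 4 ^ k := by
      rw [mul_pow, ← pow_mul, mul_comm k 2, pow_mul]; norm_num
    linarith
  have h4 : s ^ 2 * (1 + (k : ℝ) / 4) ≤ s ^ 2 * D ^ 2 := by nlinarith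
  exact le_of_mul_le_mul_left h4 (by positivity)

end diamond

end Crest.Agent.R125
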