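import Mathlib
import Crest.Prelude.Def_TreePotentials

/-! Row 125: the combinatorial test lemma for bounded path potentials. -/

set_option autoImplicit false
open Crest.AnalysisR Crest.AnalysisR.TreePotential

namespace Crest.Agent.R125

/-- The coefficient family whose path potential is a prescribed function. -/
def potIncr (Q : List ℕ → ℝ) : List ℕ → ℝ
  | [] => Q []
  | a :: v => Q (a :: v) - Q v

theorem pathPotential_potIncr (Q : List ℕ → ℝ) (s : List ℕ) :
    pathPotential (potIncr Q) s = Q s := by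
  induction s with
  | nil => simp [pathPotential, potIncr]
  | cons a v ih => simp [pathPotential, potIncr, ih]

/-- Truncation of a real number to the interval `[-c, c]`. -/
noncomputable def potClamp (x c : ℝ) : ℝ := max (-c) (min x c)

theorem abs_potClamp_le {x c : ℝ} (hc : 0 ≤ c) : |potClamp x c| ≤ c := by
  unfold potClamp
  rw [abs_le]
  refine ⟨le_max_left _ _, max_le (by linarith) (min_le_right _ _)⟩

theorem potClamp_of_abs_le {x c : ℝ} (h : |x| ≤ c) : potClamp x c = x := by
  unfold potClamp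
  rw [abs_le] at h
  rw [min_eq_left h.2, max_eq_right h.1]

theorem abs_potClamp_sub_le (x c c' : ℝ) : |potClamp x c - potClamp x c'| ≤ |c - c'| := by
  unfold potClamp
  have h1 := le_abs_self (c - c')
  have h2 := neg_abs_le (c - c')
  rw [abs_le]
  constructor <;>
  · simp only [max_def, min_def]
    split_ifs <;> linarith [abs_nonneg (c - c')]

open Classical in
/-- The potential of `f` restricted to an ancestor-closed set is a value of the potential of `f`,
and the potential of `g` restricted to the complement is a difference of two such values. -/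
theorem pathPotential_restrict (T : Set (List ℕ)) (hT : ∀ a v, a :: v ∈ T → v ∈ T) (h0 : [] ∈ T)
    (s : List ℕ) : ∃ r, (s ∈ T → r = s) ∧ ∀ f : List ℕ → ℝ,
      pathPotential (fun u => if u ∈ T then f u else 0) s = pathPotential f r ∧
      pathPotential (fun u => if u ∈ T then 0 else f u) s = pathPotential f s - pathPotential f r := by
  induction s with
  | nil => exact ⟨[], fun _ => rfl, fun f => by simp [pathPotential, h0]⟩
  | cons a v ih =>
    obtain ⟨r, hr, hf⟩ := ih
    by_cases h : a :: v ∈ T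
    · have hv := hr (hT a v h)
      subst hv
      refine ⟨a :: r, fun _ => rfl, fun f => ?_⟩
      obtain ⟨h1, h2⟩ := hf f
      simp only [pathPotential, h, if_true, h1, h2]
      exact ⟨trivial, by ring⟩
    · refine ⟨r, fun h' => absurd h' h, fun f => ?_⟩
      obtain ⟨h1, h2⟩ := hf f
      simp only [pathPotential, h, if_false, h1, h2]
      constructor <;> ring

/-- **Test lemma.** -/
theorem exists_test_pair (T : Set (List ℕ)) (hT : ∀ a v, a :: v ∈ T → v ∈ T) (h0 : [] ∈ T)
    (f g : List ℕ → ℝ) (hf : ∀ s, |pathPotential f s| ≤ 1) (hg : ∀ s, |pathPotential g s| ≤ 1)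
    (al be : ℝ) (hal : 0 ≤ al) (hbe : 0 ≤ be) (hab : al ^ 2 + be ^ 2 ≤ 1) :
    ∃ h1 h2 : List ℕ → ℝ, (∀ s, |pathPotential h1 s| ≤ 1) ∧ (∀ s, |pathPotential h2 s| ≤ 1) ∧
      (∀ s ∈ T, h1 s = al * f s ∧ h2 s = al * f s) ∧
      (∀ s, s ∉ T → h1 s - h2 s = be * g s ∧ |h1 s| ≤ be * |g s| ∧ |h2 s| ≤ be * |g s|) := by
  classical
  have hal1 : al ≤ 1 := by nlinarith
  have hbe1 : be ≤ 1 := by nlinarith
  set F : List ℕ → ℝ := pathPotential (fun u => if u ∈ T then f u else 0) with hF
  set G : List ℕ → ℝ := fun s => pathPotential (fun u => if u ∈ T then 0 else g u) s / 2 with hG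
  have hFb : ∀ s, |F s| ≤ 1 := by
    intro s
    obtain ⟨r, -, hr⟩ := pathPotential_restrict T hT h0 s
    rw [hF, (hr f).1]; exact hf r
  have hGb : ∀ s, |G s| ≤ 1 := by
    intro s
    obtain ⟨r, -, hr⟩ := pathPotential_restrict T hT h0 s
    simp only [hG]
    rw [(hr g).2]
    have h1 := abs_le.1 (hg s)
    have h2 := abs_le.1 (hg r)
    rw [abs_le]; constructor <;> linarith [h1.1, h1.2, h2.1, h2.2]
  have hGT : ∀ s ∈ T, G s = 0 := by
    intro s hs
    obtain ⟨r, hrs, hr⟩ := pathPotential_restrict T hT h0 s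
    simp only [hG]
    rw [(hr g).2, hrs hs]; simp
  have hc : ∀ s, 0 ≤ 1 - be * |G s| := by
    intro s
    have := mul_le_one₀ hbe1 (abs_nonneg (G s)) (hGb s)
    linarith
  let Q : ℝ → List ℕ → ℝ := fun σ s => potClamp (al * F s) (1 - be * |G s|) + σ * (be * G s)
  have hQb : ∀ σ : ℝ, |σ| = 1 → ∀ s, |Q σ s| ≤ 1 := by
    intro σ hσ s
    have h1 := abs_potClamp_le (x := al * F s) (hc s)
    have h2 : |σ * (be * G s)| = be * |G s| := by
      rw [abs_mul, abs_mul, hσ, abs_of_nonneg hbe, one_mul]
    have h3 := abs_add_le (potClamp (al * F s) (1 - be * |G s|)) (σ * (be * G s))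
    simp only [Q]
    linarith
  have hQT : ∀ σ : ℝ, ∀ s ∈ T, Q σ s = al * F s := by
    intro σ s hs
    simp only [Q, hGT s hs, abs_zero, mul_zero, sub_zero, add_zero]
    apply potClamp_of_abs_le
    rw [abs_mul, abs_of_nonneg hal]
    exact mul_le_one₀ hal1 (abs_nonneg _) (hFb s)
  have hincT : ∀ σ : ℝ, ∀ s ∈ T, potIncr (Q σ) s = al * f s := by
    intro σ s hs
    cases s with
    | nil => simp only [potIncr]; rw [hQT σ _ hs]; simp [hF, pathPotential, h0]
    | cons a v =>
      simp only [potIncr]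
      rw [hQT σ _ hs, hQT σ _ (hT a v hs)]
      simp only [hF, pathPotential, hs, if_true]; ring
  have hoff : ∀ a v, a :: v ∉ T → F (a :: v) = F v ∧ G (a :: v) = G v + g (a :: v) / 2 := by
    intro a v hs
    simp only [hF, hG, pathPotential, hs, if_false]
    constructor <;> ring
  have hincB : ∀ σ : ℝ, |σ| = 1 → ∀ s, s ∉ T → |potIncr (Q σ) s| ≤ be * |g s| := by
    intro σ hσ s hs
    cases s with
    | nil => exact absurd h0 hs
    | cons a v =>
      obtain ⟨e1, e2⟩ := hoff a v hs
      simp only [potIncr, Q]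
      rw [e1]
      have h1 := abs_potClamp_sub_le (al * F v) (1 - be * |G (a :: v)|) (1 - be * |G v|)
      have h2 : |1 - be * |G (a :: v)| - (1 - be * |G v|)| ≤ be * (|g (a :: v)| / 2) := by
        have e : 1 - be * |G (a :: v)| - (1 - be * |G v|) = be * (|G v| - |G (a :: v)|) := by ring
        rw [e, abs_mul, abs_of_nonneg hbe]
        refine mul_le_mul_of_nonneg_left ((abs_abs_sub_abs_le_abs_sub _ _).trans ?_) hbe
        rw [e2, show G v - (G v + g (a :: v) / 2) = -(g (a :: v) / 2) by ring, abs_neg, abs_div]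
        norm_num
      have h3 : |σ * (be * G (a :: v)) - σ * (be * G v)| = be * (|g (a :: v)| / 2) := by
        rw [e2, show σ * (be * (G v + g (a :: v) / 2)) - σ * (be * G v)
          = σ * (be * (g (a :: v) / 2)) by ring, abs_mul, abs_mul, hσ, abs_of_nonneg hbe, abs_div]
        norm_num
      have h4 := abs_add_le (potClamp (al * F v) (1 - be * |G (a :: v)|) -
        potClamp (al * F v) (1 - be * |G v|)) (σ * (be * G (a :: v)) - σ * (be * G v))
      rw [show potClamp (al * F v) (1 - be * |G (a :: v)|) + σ * (be * G (a :: v)) -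
        (potClamp (al * F v) (1 - be * |G v|) + σ * (be * G v)) =
        potClamp (al * F v) (1 - be * |G (a :: v)|) - potClamp (al * F v) (1 - be * |G v|) +
          (σ * (be * G (a :: v)) - σ * (be * G v)) by ring]
      linarith
  refine ⟨potIncr (Q 1), potIncr (Q (-1)), fun s => ?_, fun s => ?_, fun s hs => ?_, fun s hs => ?_⟩
  · rw [pathPotential_potIncr]; exact hQb 1 abs_one s
  · rw [pathPotential_potIncr]; exact hQb (-1) (by simp) s
  · exact ⟨hincT 1 s hs, hincT (-1) s hs⟩
  · refine ⟨?_, hincB 1 abs_one s hs, hincB (-1) (by simp) s hs⟩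
    cases s with
    | nil => exact absurd h0 hs
    | cons a v =>
      obtain ⟨-, e2⟩ := hoff a v hs
      simp only [potIncr, Q]
      rw [e2]; ring

/-- Pointwise square bound for the pair produced by the test lemma. -/
theorem sq_le_of_test_pair {T : Set (List ℕ)} {f g h : List ℕ → ℝ} {al be : ℝ}
    (h1 : ∀ s ∈ T, h s = al * f s) (h2 : ∀ s, s ∉ T → |h s| ≤ be * |g s|) (s : List ℕ) :
    h s ^ 2 ≤ al ^ 2 * f s ^ 2 + be ^ 2 * g s ^ 2 := by
  by_cases hs : s ∈ T
  · rw [h1 s hs, mul_pow]; nlinarith [sq_nonneg (be * g s)]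
  · have h3 := h2 s hs
    have h4 : h s ^ 2 ≤ (be * |g s|) ^ 2 := by
      rw [← sq_abs (h s)]; exact pow_le_pow_left₀ (abs_nonneg _) h3 2
    rw [mul_pow, sq_abs] at h4
    nlinarith [sq_nonneg (al * f s)]

end Crest.Agent.R125
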