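import Mathlib
import Crest.Prelude.Def_TreePotentials
import Crest.Agent.R125.NoAUC
import Crest.Agent.R125.PotTest

/-! Row 125: the four tree-potential models (statement S0168). -/

set_option autoImplicit false
open Crest.AnalysisR Crest.AnalysisR.TreePotential

namespace Crest.Agent.R125.Pot

/-- The ambient space of bounded functions on the tests. -/
abbrev Amb (m : PotentialModel) : Type := lp (fun _ : PotentialTest m => ℝ) ⊤

/-- The model space as a type. -/
abbrev Sp (m : PotentialModel) : Type := modelSpace m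

instance (m : PotentialModel) : CompleteSpace (Sp m) :=
  (Submodule.isClosed_topologicalClosure _).completeSpace_coe

/-- Evaluation at a test, on the ambient space. -/
noncomputable def evA {m : PotentialModel} (f : PotentialTest m) : Amb m →L[ℝ] ℝ :=
  lp.evalCLM ℝ (fun _ : PotentialTest m => ℝ) ⊤ f

theorem evA_apply {m : PotentialModel} (f : PotentialTest m) (x : Amb m) : evA f x = x f := rfl

theorem evA_coord {m : PotentialModel} (f : PotentialTest m) (s : List ℕ) :
    evA f (coordVector m s) = f.1 s := rfl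

/-- Evaluation at a test, on the model space. -/
noncomputable def ev {m : PotentialModel} (f : PotentialTest m) : Sp m →L[ℝ] ℝ :=
  (evA f).comp (modelSpace m).subtypeL

theorem ev_apply {m : PotentialModel} (f : PotentialTest m) (x : Sp m) :
    ev f x = evA f (x : Amb m) := rfl

theorem coord_mem (m : PotentialModel) (s : List ℕ) : coordVector m s ∈ modelSpace m :=
  Submodule.le_topologicalClosure _ (Submodule.subset_span ⟨s, rfl⟩)

/-- Coordinate vector in the model space. -/
noncomputable def e (m : PotentialModel) (s : List ℕ) : Sp m := ⟨coordVector m s, coord_mem m s⟩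

theorem ev_e {m : PotentialModel} (f : PotentialTest m) (s : List ℕ) : ev f (e m s) = f.1 s := rfl

theorem abs_ev_le {m : PotentialModel} (f : PotentialTest m) (x : Sp m) : |ev f x| ≤ ‖x‖ := by
  have := lp.norm_apply_le_norm (E := fun _ : PotentialTest m => ℝ) (p := ⊤) (by simp)
    (x : Amb m) f
  rw [Real.norm_eq_abs] at this
  exact this

theorem norm_le_of_ev {m : PotentialModel} (x : Sp m) {C : ℝ} (hC : 0 ≤ C)
    (h : ∀ f : PotentialTest m, |ev f x| ≤ C) : ‖x‖ ≤ C := by
  have := lp.norm_le_of_forall_le (E := fun _ : PotentialTest m => ℝ) (f := (x : Amb m)) hC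
    (fun f => by rw [Real.norm_eq_abs]; exact h f)
  exact this

/-- Density: a continuous functional vanishing on the coordinate vectors vanishes. -/
theorem eq_zero_of_coord {m : PotentialModel} (Λ : Amb m →L[ℝ] ℝ)
    (h : ∀ s, Λ (coordVector m s) = 0) (x : Sp m) : Λ (x : Amb m) = 0 := by
  have hle : modelSpace m ≤ LinearMap.ker (Λ : Amb m →ₗ[ℝ] ℝ) := by
    refine Submodule.topologicalClosure_minimal _ ?_ ?_
    · rw [Submodule.span_le]
      rintro _ ⟨s, rfl⟩
      exact h s
    · exact ContinuousLinearMap.isClosed_ker Λ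
  exact hle x.2

theorem pathPotential_neg (f : List ℕ → ℝ) (s : List ℕ) :
    pathPotential (fun u => - f u) s = - pathPotential f s := by
  induction s with
  | nil => simp [pathPotential]
  | cons a v ih => simp only [pathPotential, ih]; ring

theorem isTest_neg {m : PotentialModel} {f : List ℕ → ℝ} (hf : IsTest m f) :
    IsTest m (fun u => - f u) := by
  refine ⟨fun s => by rw [pathPotential_neg, abs_neg]; exact hf.1 s, ?_⟩
  have h := hf.2
  cases m with
  | rootlessSibling => exact ⟨by simp [h.1], fun r A => by simpa using h.2 r A⟩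
  | rootedSibling => exact fun r A => by simpa using h r A
  | antichain =>
    refine ⟨?_, fun A hA => by simpa using h.2 A hA⟩
    refine h.1.subset fun u hu => ?_
    simpa using hu
  | global => exact fun A => by simpa using h A

/-- The negative of a test. -/
def negT {m : PotentialModel} (f : PotentialTest m) : PotentialTest m :=
  ⟨fun u => - f.1 u, isTest_neg f.2⟩

theorem ev_negT {m : PotentialModel} (f : PotentialTest m) (x : Sp m) :
    ev (negT f) x = - ev f x := by
  have := eq_zero_of_coord (evA (negT f) + evA f) (fun s => by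
    rw [add_apply, evA_coord, evA_coord]
    exact neg_add_cancel _) x
  rw [add_apply] at this
  rw [ev_apply, ev_apply]; linarith

theorem pathPotential_zero (s : List ℕ) : pathPotential (fun _ => (0 : ℝ)) s = 0 := by
  induction s with
  | nil => simp [pathPotential]
  | cons a v ih => simp [pathPotential, ih]

theorem isTest_zero (m : PotentialModel) : IsTest m (fun _ => 0) := by
  refine ⟨fun s => by simp [pathPotential_zero], ?_⟩
  cases m with
  | rootlessSibling => exact ⟨rfl, fun r A => by simp⟩
  | rootedSibling => exact fun r A => by simp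
  | antichain => exact ⟨by simp, fun A _ => by simp⟩
  | global => exact fun A => by simp

/-- The zero test. -/
def zeroT (m : PotentialModel) : PotentialTest m := ⟨fun _ => 0, isTest_zero m⟩

/-- Almost norming tests. -/
theorem exists_ev_gt {m : PotentialModel} (x : Sp m) {ε : ℝ} (hε : 0 < ε) :
    ∃ f : PotentialTest m, ‖x‖ - ε < ev f x := by
  by_contra hcon
  push Not at hcon
  have h0 : 0 ≤ ‖x‖ - ε := by
    have h1 := hcon (zeroT m)
    have h2 := hcon (negT (zeroT m))
    rw [ev_negT] at h2
    linarith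
  have := norm_le_of_ev x h0 fun f => by
    have h1 := hcon f
    have h2 := hcon (negT f)
    rw [ev_negT] at h2
    rw [abs_le]; constructor <;> linarith
  linarith

theorem pathPotential_single (s u : List ℕ) :
    pathPotential (fun w => if w = s then (1 : ℝ) else 0) u = if s <:+ u then 1 else 0 := by
  induction u with
  | nil =>
    by_cases h : s = []
    · simp [pathPotential, h]
    · have h' : ¬ ([] : List ℕ) = s := fun h' => h h'.symm
      simp [pathPotential, h, h']
  | cons a v ih =>
    simp only [pathPotential, ih, List.suffix_cons_iff]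
    by_cases h1 : a :: v = s
    · subst h1
      have : ¬ (a :: v) <:+ v := fun h => by
        have := h.length_le
        simp at this
      simp [this]
    · have h1' : ¬ s = a :: v := fun h => h1 h.symm
      simp [h1, h1']

theorem sum_sq_single_le {ι : Type*} (A : Finset ι) (φ : ι → List ℕ) (hφ : Function.Injective φ)
    (s : List ℕ) : ∑ n ∈ A, (if φ n = s then (1 : ℝ) else 0) ^ 2 ≤ 1 := by
  classical
  have h1 : ∀ n, (if φ n = s then (1 : ℝ) else 0) ^ 2 = if φ n = s then 1 else 0 := by
    intro n; split_ifs <;> simp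
  simp only [h1]
  rw [Finset.sum_boole]
  have : (A.filter fun n => φ n = s).card ≤ 1 := by
    refine Finset.card_le_one.2 fun a ha b hb => hφ ?_
    rw [(Finset.mem_filter.1 ha).2, (Finset.mem_filter.1 hb).2]
  exact_mod_cast this

theorem isTest_single (m : PotentialModel) (s : List ℕ) (hs : m = .rootlessSibling → s ≠ []) :
    IsTest m (fun w => if w = s then (1 : ℝ) else 0) := by
  refine ⟨fun u => by rw [pathPotential_single]; split_ifs <;> simp, ?_⟩
  cases m with
  | rootlessSibling =>
    refine ⟨by simp [(hs rfl).symm], fun r A => ?_⟩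
    exact sum_sq_single_le A (fun n => n :: r) (fun a b h => by simpa using h) s
  | rootedSibling =>
    exact fun r A => sum_sq_single_le A (fun n => n :: r) (fun a b h => by simpa using h) s
  | antichain =>
    refine ⟨(Set.finite_singleton s).subset fun u hu => ?_, fun A _ => ?_⟩
    · by_contra h
      exact hu (by simpa using h)
    · exact sum_sq_single_le A id Function.injective_id s
  | global => exact fun A => sum_sq_single_le A id Function.injective_id s

open Classical in
theorem isTest_delta (m : PotentialModel) (s : List ℕ) :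
    IsTest m (fun w => if w = s ∧ (m = .rootlessSibling → s ≠ []) then (1 : ℝ) else 0) := by
  by_cases h : (m = .rootlessSibling → s ≠ [])
  · have e : (fun w => if w = s ∧ (m = .rootlessSibling → s ≠ []) then (1 : ℝ) else 0)
        = fun w => if w = s then (1 : ℝ) else 0 := by
      funext w
      by_cases hw : w = s
      · rw [if_pos ⟨hw, h⟩, if_pos hw]
      · rw [if_neg (fun h' => hw h'.1), if_neg hw]
    rw [e]; exact isTest_single m s h
  · have e : (fun w => if w = s ∧ (m = .rootlessSibling → s ≠ []) then (1 : ℝ) else 0)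
        = fun _ => (0 : ℝ) := by
      funext w
      rw [if_neg (fun h' => h h'.2)]
    rw [e]; exact isTest_zero m

open Classical in
/-- The coordinate test of the vertex `s` (the zero test for the root of the rootless model). -/
noncomputable def delta (m : PotentialModel) (s : List ℕ) : PotentialTest m :=
  ⟨fun w => if w = s ∧ (m = .rootlessSibling → s ≠ []) then (1 : ℝ) else 0, isTest_delta m s⟩

open Classical in
theorem delta_val (m : PotentialModel) (s w : List ℕ) :
    (delta m s).1 w = if w = s ∧ (m = .rootlessSibling → s ≠ []) then (1 : ℝ) else 0 := rfl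

theorem delta_of_ne (m : PotentialModel) {s u : List ℕ} (h : u ≠ s) : (delta m s).1 u = 0 := by
  rw [delta_val, if_neg (fun h' => h h'.1)]

theorem delta_self (m : PotentialModel) (s : List ℕ) (f : PotentialTest m) :
    (delta m s).1 s * f.1 s = f.1 s := by
  rw [delta_val]
  by_cases h : (m = .rootlessSibling → s ≠ [])
  · rw [if_pos ⟨rfl, h⟩, one_mul]
  · push Not at h
    obtain ⟨rfl, rfl⟩ := h
    have : f.1 [] = 0 := f.2.2.1
    rw [this, mul_zero]

theorem delta_cons (m : PotentialModel) (a : ℕ) (v : List ℕ) :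
    (delta m (a :: v)).1 (a :: v) = 1 := by
  rw [delta_val, if_pos ⟨rfl, fun _ => List.cons_ne_nil a v⟩]

theorem one_le_norm_e (m : PotentialModel) (a : ℕ) (v : List ℕ) : 1 ≤ ‖e m (a :: v)‖ := by
  have := abs_ev_le (delta m (a :: v)) (e m (a :: v))
  rwa [ev_e, delta_cons, abs_one] at this

/-- All four models have the sibling square-sum bound. -/
theorem sibling_bound {m : PotentialModel} (f : PotentialTest m) (r : List ℕ) (A : Finset ℕ) :
    ∑ n ∈ A, f.1 (n :: r) ^ 2 ≤ 1 := by
  classical
  have h := f.2.2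
  have hinj : ∀ a ∈ A, ∀ b ∈ A, (a :: r) = (b :: r) → a = b := fun a _ b _ h => by simpa using h
  cases m with
  | rootlessSibling => exact h.2 r A
  | rootedSibling => exact h r A
  | antichain =>
    have := h.2 (A.image fun n => n :: r) (by
      intro u hu v hv huv hs
      obtain ⟨a, -, rfl⟩ := Finset.mem_image.1 hu
      obtain ⟨b, -, rfl⟩ := Finset.mem_image.1 hv
      exact huv (hs.eq_of_length (by simp)))
    rwa [Finset.sum_image hinj] at this
  | global =>
    have := h (A.image fun n => n :: r)
    rwa [Finset.sum_image hinj] at this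

theorem upper_l2 (m : PotentialModel) (r : List ℕ) (A : Finset ℕ) (a : ℕ → ℝ) :
    ‖∑ n ∈ A, a n • e m (n :: r)‖ ≤ 1 * Real.sqrt (∑ n ∈ A, a n ^ 2) := by
  rw [one_mul]
  refine norm_le_of_ev _ (Real.sqrt_nonneg _) fun f => ?_
  simp only [map_sum, map_smul, ev_e, smul_eq_mul]
  refine Real.abs_le_sqrt ?_
  have h1 := Finset.sum_mul_sq_le_sq_mul_sq A a (fun n => f.1 (n :: r))
  have h2 := sibling_bound f r A
  have h3 : 0 ≤ ∑ n ∈ A, a n ^ 2 := Finset.sum_nonneg fun n _ => sq_nonneg _
  nlinarith

/-- Sum of the coordinate vectors along the root path. -/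
noncomputable def pathVec (m : PotentialModel) : List ℕ → Sp m
  | [] => e m []
  | a :: v => pathVec m v + e m (a :: v)

theorem ev_pathVec {m : PotentialModel} (f : PotentialTest m) (v : List ℕ) :
    ev f (pathVec m v) = pathPotential f.1 v := by
  induction v with
  | nil => simp [pathVec, pathPotential, ev_e]
  | cons a v ih => simp [pathVec, pathPotential, ev_e, ih]

theorem norm_pathVec_le (m : PotentialModel) (v : List ℕ) : ‖pathVec m v‖ ≤ 1 :=
  norm_le_of_ev _ zero_le_one fun f => by rw [ev_pathVec]; exact f.2.1 v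

theorem half_le_norm_aux {X : Type*} [NormedAddCommGroup X] (a y : X) {ε : ℝ} (h1 : 1 ≤ ‖a‖)
    (h : ‖a - y‖ < min ε (1 / 2)) : 1 / 2 ≤ ‖y‖ := by
  have h2 := norm_sub_norm_le a y
  have h3 := min_le_right ε (1 / 2)
  linarith

theorem not_isAUC (m : PotentialModel) (N : Sp m → ℝ) (hN : (mkB (Sp m)).IsEquivNorm N) :
    ¬ (mkB (Sp m)).IsAUC N := by
  refine not_isAUC_of_trees (1 / 2) 1 (by norm_num) (fun _ => Set.range (pathVec m)) ?_ ?_ ?_ N hN
  · intro k
    refine ⟨pathVec m [0], ⟨_, rfl⟩, ?_⟩
    have := abs_ev_le (delta m [0]) (pathVec m [0])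
    rw [ev_pathVec] at this
    simp only [pathPotential] at this
    rw [delta_cons, delta_of_ne m (by simp), zero_add, abs_one] at this
    linarith
  · rintro k _ ⟨v, rfl⟩
    exact norm_pathVec_le m v
  · rintro k _ ⟨v, rfl⟩ F hF ε hε
    obtain ⟨n, y, hyF, hy⟩ := exists_near_cof_of_upper_l2 (fun n => e m (n :: v)) 1
      (upper_l2 m v) F hF (min ε (1 / 2)) (lt_min hε (by norm_num))
    refine ⟨y, hyF, ?_, pathVec m (n :: v), ⟨_, rfl⟩, ?_⟩
    · exact half_le_norm_aux _ _ (one_le_norm_e m n v) hy
    · rw [show pathVec m v + y - pathVec m (n :: v) = -(e m (n :: v) - y) by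
        simp only [pathVec]; abel, norm_neg]
      exact hy.le.trans (min_le_left _ _)

theorem not_finiteDimensional (m : PotentialModel) : ¬ FiniteDimensional ℝ (Sp m) := by
  intro hfin
  have hF := isCof_ker (ContinuousLinearMap.id ℝ (Sp m))
  obtain ⟨n, y, hyF, hy⟩ := exists_near_cof_of_upper_l2 (fun n => e m (n :: [])) 1
    (upper_l2 m []) _ hF 1 one_pos
  have hy0 : y = 0 := hyF
  rw [hy0, sub_zero] at hy
  exact not_lt.2 (one_le_norm_e m n []) hy

theorem separable (m : PotentialModel) : TopologicalSpace.SeparableSpace (Sp m) := by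
  have h : TopologicalSpace.IsSeparable (modelSpace m : Set (Amb m)) :=
    ((Set.countable_range (coordVector m)).isSeparable.span (R := ℝ)).closure
  exact h.separableSpace

theorem isTest_of_pair {m : PotentialModel} (f g : PotentialTest m) {T : Set (List ℕ)}
    (h0 : [] ∈ T) {h : List ℕ → ℝ} {al be : ℝ} (hab : al ^ 2 + be ^ 2 ≤ 1)
    (hp : ∀ s, |pathPotential h s| ≤ 1)
    (h1 : ∀ s ∈ T, h s = al * f.1 s) (h2 : ∀ s, s ∉ T → |h s| ≤ be * |g.1 s|) : IsTest m h := by
  refine ⟨hp, ?_⟩
  have hsq := sq_le_of_test_pair h1 h2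
  have key : ∀ {ι : Type} (A : Finset ι) (φ : ι → List ℕ), ∑ n ∈ A, f.1 (φ n) ^ 2 ≤ 1 →
      ∑ n ∈ A, g.1 (φ n) ^ 2 ≤ 1 → ∑ n ∈ A, h (φ n) ^ 2 ≤ 1 := by
    intro ι A φ hf hg
    calc ∑ n ∈ A, h (φ n) ^ 2 ≤ ∑ n ∈ A, (al ^ 2 * f.1 (φ n) ^ 2 + be ^ 2 * g.1 (φ n) ^ 2) :=
          Finset.sum_le_sum fun n _ => hsq _
      _ = al ^ 2 * ∑ n ∈ A, f.1 (φ n) ^ 2 + be ^ 2 * ∑ n ∈ A, g.1 (φ n) ^ 2 := by
          rw [Finset.sum_add_distrib, Finset.mul_sum, Finset.mul_sum]
      _ ≤ al ^ 2 * 1 + be ^ 2 * 1 := by gcongr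
      _ ≤ 1 := by linarith
  have hf := f.2.2
  have hg := g.2.2
  cases m with
  | rootlessSibling =>
    refine ⟨by rw [h1 _ h0, hf.1, mul_zero], fun r A => key A (fun n => n :: r) (hf.2 r A) (hg.2 r A)⟩
  | rootedSibling => exact fun r A => key A (fun n => n :: r) (hf r A) (hg r A)
  | antichain =>
    refine ⟨(hf.1.union hg.1).subset fun u hu => ?_, fun A hA => key A id (hf.2 A hA) (hg.2 A hA)⟩
    by_contra hcon
    simp only [Set.mem_union, Function.mem_support, not_or, not_not] at hcon
    have := hsq u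
    rw [hcon.1, hcon.2] at this
    apply hu
    nlinarith [sq_nonneg (h u)]
  | global => exact fun A => key A id (hf A) (hg A)

theorem midpoint (m : PotentialModel) (t : ℝ) (ht : 0 < t) :
    (mkB (Sp m)).MidpointModulusGE (mkB (Sp m)).norm t (Real.sqrt (1 + t ^ 2 / 4) - 1) := by
  classical
  change ∀ x : Sp m, ‖x‖ = 1 → ∀ η : ℝ, 0 < η → ∃ F : Set (Sp m), (mkB (Sp m)).IsCof F ∧
    ∀ y ∈ F, ‖y‖ = 1 → Real.sqrt (1 + t ^ 2 / 4) - 1 - η ≤ (‖x + t • y‖ + ‖x - t • y‖) / 2 - 1
  intro x hx η hη
  set ε : ℝ := η / (3 + t) with hε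
  have hε0 : 0 < ε := by positivity
  -- finitely supported approximation of `x`
  have hxc : (x : Amb m) ∈ closure (Submodule.span ℝ (Set.range (coordVector m)) : Set (Amb m)) :=
    x.2
  obtain ⟨x0, hx0, hxx0⟩ := Metric.mem_closure_iff.1 hxc ε hε0
  obtain ⟨c, hc⟩ := (Finsupp.mem_span_range_iff_exists_finsupp).1 hx0
  let z : Sp m := ⟨x0, Submodule.le_topologicalClosure _ hx0⟩
  have hxz : ‖x - z‖ < ε := by
    rw [dist_eq_norm] at hxx0
    exact hxx0
  have hz : ∀ f : PotentialTest m, ev f z = ∑ s ∈ c.support, c s * f.1 s := by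
    intro f
    rw [ev_apply]
    change evA f x0 = _
    rw [← hc, Finsupp.sum, map_sum]
    simp [evA_coord]
  let Tf : Finset (List ℕ) := insert [] (c.support.biUnion fun s => s.tails.toFinset)
  have hTmem : ∀ u, u ∈ Tf ↔ u = [] ∨ ∃ s ∈ c.support, u <:+ s := by
    intro u
    simp only [Tf, Finset.mem_insert, Finset.mem_biUnion, List.mem_toFinset, List.mem_tails]
  have hT : ∀ a v, a :: v ∈ (Tf : Set (List ℕ)) → v ∈ (Tf : Set (List ℕ)) := by
    intro a v h
    rw [Finset.mem_coe, hTmem] at h ⊢
    rcases h with h | ⟨s, hs, h⟩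
    · exact absurd h (List.cons_ne_nil a v)
    · exact Or.inr ⟨s, hs, (List.suffix_cons a v).trans h⟩
  have h0 : [] ∈ (Tf : Set (List ℕ)) := by rw [Finset.mem_coe, hTmem]; exact Or.inl rfl
  have hsupp : ∀ s ∈ c.support, s ∈ (Tf : Set (List ℕ)) := fun s hs => by
    rw [Finset.mem_coe, hTmem]; exact Or.inr ⟨s, hs, List.suffix_refl s⟩
  let L : Sp m →L[ℝ] (Tf → ℝ) := ContinuousLinearMap.pi fun s : Tf => ev (delta m s.1)
  refine ⟨{y | L y = 0}, isCof_ker L, fun y hy hy1 => ?_⟩
  have hyδ : ∀ s ∈ Tf, ev (delta m s) y = 0 := fun s hs => congrFun hy ⟨s, hs⟩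
  obtain ⟨f, hf⟩ := exists_ev_gt z hε0
  obtain ⟨g, hg⟩ := exists_ev_gt y hε0
  set R : ℝ := Real.sqrt (1 + t ^ 2 / 4) with hR
  have hR2 : R ^ 2 = 1 + t ^ 2 / 4 := Real.sq_sqrt (by positivity)
  have hR1 : 1 ≤ R := Real.one_le_sqrt.2 (by nlinarith [sq_nonneg t])
  have hR0 : 0 < R := by linarith
  have hab : (1 / R) ^ 2 + (t / 2 / R) ^ 2 ≤ 1 := by
    rw [div_pow, div_pow, ← add_div, div_le_one (by positivity), hR2]; nlinarith
  obtain ⟨h1, h2, hp1, hp2, hin, hout⟩ := exists_test_pair (Tf : Set (List ℕ)) hT h0 f.1 g.1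
    f.2.1 g.2.1 (1 / R) (t / 2 / R) (by positivity) (by positivity) hab
  let k1 : PotentialTest m := ⟨h1, isTest_of_pair f g h0 hab hp1 (fun s hs => (hin s hs).1)
    (fun s hs => (hout s hs).2.1)⟩
  let k2 : PotentialTest m := ⟨h2, isTest_of_pair f g h0 hab hp2 (fun s hs => (hin s hs).2)
    (fun s hs => (hout s hs).2.2)⟩
  have hz1 : ev k1 z = 1 / R * ev f z := by
    rw [hz, hz, Finset.mul_sum]
    refine Finset.sum_congr rfl fun s hs => ?_
    change c s * h1 s = _
    rw [(hin s (hsupp s hs)).1]; ring
  have hz2 : ev k2 z = 1 / R * ev f z := by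
    rw [hz, hz, Finset.mul_sum]
    refine Finset.sum_congr rfl fun s hs => ?_
    change c s * h2 s = _
    rw [(hin s (hsupp s hs)).2]; ring
  have hy12 : ev k1 y - ev k2 y = t / 2 / R * ev g y := by
    have := eq_zero_of_coord (evA k1 - evA k2 - (t / 2 / R) • evA g -
      ∑ s ∈ Tf, (h1 s - h2 s - t / 2 / R * g.1 s) • evA (delta m s)) (fun u => by
        simp only [sub_apply, smul_apply,
          _root_.sum_apply, evA_coord, smul_eq_mul]
        by_cases hu : u ∈ Tf
        · rw [Finset.sum_eq_single u (fun s _ hs => by rw [delta_of_ne m hs.symm, mul_zero])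
            (fun h => absurd hu h)]
          have e1 := delta_self m u k1
          have e2 := delta_self m u k2
          have e3 := delta_self m u g
          change _ * h1 u = h1 u at e1
          change _ * h2 u = h2 u at e2
          change h1 u - h2 u - _ - _ = 0
          linear_combination -e1 + e2 + t / 2 / R * e3
        · rw [Finset.sum_eq_zero (fun s hs => by
            rw [delta_of_ne m (fun h : u = s => hu (h ▸ hs)), mul_zero])]
          have := (hout u hu).1
          change h1 u - h2 u - _ - _ = 0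
          linarith) y
    simp only [sub_apply, smul_apply,
      _root_.sum_apply, smul_eq_mul] at this
    rw [Finset.sum_eq_zero (fun s hs => by
      rw [← ev_apply, hyδ s hs, mul_zero])] at this
    simp only [← ev_apply] at this
    linarith
  have a1 := (le_abs_self _).trans (abs_ev_le k1 (z + t • y))
  have a2 := (le_abs_self _).trans (abs_ev_le k2 (z - t • y))
  rw [map_add, map_smul, smul_eq_mul] at a1
  rw [map_sub, map_smul, smul_eq_mul] at a2
  have b1 : ‖z + t • y‖ ≤ ‖x + t • y‖ + ε := by
    have := norm_sub_le (x + t • y) (x - z)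
    rw [show x + t • y - (x - z) = z + t • y by abel] at this
    linarith
  have b2 : ‖z - t • y‖ ≤ ‖x - t • y‖ + ε := by
    have := norm_sub_le (x - t • y) (x - z)
    rw [show x - t • y - (x - z) = z - t • y by abel] at this
    linarith
  have b3 : 1 - ε ≤ ‖z‖ := by
    have := norm_sub_norm_le x z
    linarith
  have c1 : 1 / R * (1 - 2 * ε) ≤ 1 / R * ev f z :=
    mul_le_mul_of_nonneg_left (by linarith) (by positivity)
  have c2 : t * (t / 2 / R * (1 - ε)) ≤ t * (t / 2 / R * ev g y) :=
    mul_le_mul_of_nonneg_left (mul_le_mul_of_nonneg_left (by linarith) (by positivity)) ht.le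
  have d1 : 1 / R + t * (t / 2 / R) / 2 = R := by
    field_simp
    nlinarith
  have d2 : 1 / R ≤ 1 := by rw [div_le_one hR0]; exact hR1
  have d3 : t / 2 / R ≤ 1 := by
    rw [div_le_one hR0]; nlinarith
  have d4 : η = ε * (3 + t) := by rw [hε]; field_simp
  have d5 : 1 / R * ε ≤ ε := by nlinarith
  have d6 : t * (t / 2 / R) * ε ≤ t * ε := by
    have : t * (t / 2 / R) ≤ t := by nlinarith
    nlinarith
  have hsum : 2 * (1 / R * ev f z) + t * (t / 2 / R * ev g y) ≤ ‖z + t • y‖ + ‖z - t • y‖ := by
    rw [← hy12]; nlinarith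
  nlinarith

end Crest.Agent.R125.Pot
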