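import Mathlib
import Crest.Prelude.Def_TreeProducts
import Crest.Agent.R125.NoAUC

/-! Path products along a tree: probabilistic estimates for statement S0169. -/

set_option autoImplicit false
open MeasureTheory ProbabilityTheory
open Crest.AnalysisR Crest.AnalysisR.TreeProduct

namespace Crest.Agent.R125.Prod

variable {Ω : Type} [mΩ : MeasurableSpace Ω] {μ : Measure Ω} {W : List ℕ → Ω → ℝ}

set_option warn.classDefReducibility false in
/-- The sigma-algebra generated by the variables indexed by `S`. -/
def sig (W : List ℕ → Ω → ℝ) (S : Set (List ℕ)) : MeasurableSpace Ω :=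
  ⨆ u ∈ S, MeasurableSpace.comap (W u) inferInstance

omit mΩ in
theorem measurable_sig {S : Set (List ℕ)} {u : List ℕ} (hu : u ∈ S) :
    Measurable[sig W S] (W u) := by
  refine Measurable.of_comap_le ?_
  exact le_iSup₂ (f := fun u (_ : u ∈ S) => MeasurableSpace.comap (W u) inferInstance) u hu

omit mΩ in
theorem measurable_pathProduct_sig (n : ℕ) :
    ∀ v : List ℕ, v.length ≤ n → Measurable[sig W {u | u.length ≤ n}] (pathProduct W v)
  | [], _ => by
    simp only [pathProduct]
    exact measurable_const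
  | a :: v, h => by
    simp only [pathProduct]
    have h1 : v.length ≤ n := by simp at h; omega
    exact (measurable_pathProduct_sig n v h1).mul (measurable_sig (S := {u | u.length ≤ n}) h)

theorem measurable_pathProduct (hm : ∀ v, Measurable (W v)) :
    ∀ v : List ℕ, Measurable (pathProduct W v)
  | [] => by
    simp only [pathProduct]
    exact measurable_const
  | a :: v => by
    simp only [pathProduct]
    exact (measurable_pathProduct hm v).mul (hm _)

theorem indepFun_pathProduct (hm : ∀ v, Measurable (W v)) (hi : iIndepFun W μ) (v : List ℕ)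
    {g : Ω → ℝ} (hg : Measurable[sig W {u | u.length = v.length + 1}] g) :
    IndepFun (pathProduct W v) g μ := by
  rw [IndepFun_iff_Indep]
  rw [iIndepFun_iff_iIndep] at hi
  have h := indep_iSup_of_disjoint (fun u => (hm u).comap_le) hi
    (S := {u | u.length ≤ v.length}) (T := {u | u.length = v.length + 1})
    (by
      rw [Set.disjoint_left]
      intro u h1 h2
      simp only [Set.mem_ofPred_eq] at h1 h2
      omega)
  exact indep_of_indep_of_le h (measurable_pathProduct_sig v.length v le_rfl).comap_le hg.comap_le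

variable {ν : Measure ℝ}

theorem memLp_W [IsProbabilityMeasure μ] (hW : IsRealization ν μ W)
    (hm2 : Integrable (fun x : ℝ => x ^ 2) ν) {u : List ℕ} (hu : u ≠ []) : MemLp (W u) 2 μ := by
  have h1 : MemLp (fun x : ℝ => x) 2 ν :=
    (memLp_two_iff_integrable_sq measurable_id.aestronglyMeasurable).2 hm2
  rw [← hW.2.2 u hu] at h1
  exact (memLp_map_measure_iff measurable_id.aestronglyMeasurable (hW.1 u).aemeasurable).1 h1

theorem integral_comp_W (hW : IsRealization ν μ W) {u : List ℕ} (hu : u ≠ []) {f : ℝ → ℝ}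
    (hf : Measurable f) : ∫ z, f (W u z) ∂μ = ∫ x, f x ∂ν := by
  rw [← hW.2.2 u hu, integral_map (hW.1 u).aemeasurable hf.aestronglyMeasurable]

theorem ae_pos_W [IsProbabilityMeasure ν] (hW : IsRealization ν μ W) (hpos : ν (Set.Ioi 0) = 1)
    {u : List ℕ} (hu : u ≠ []) : ∀ᵐ z ∂μ, 0 < W u z := by
  have h1 : ∀ᵐ x ∂ν, x ∈ Set.Ioi (0 : ℝ) := by
    rw [← prob_compl_eq_zero_iff measurableSet_Ioi] at hpos
    exact hpos
  rw [← hW.2.2 u hu] at h1
  exact ae_of_ae_map (hW.1 u).aemeasurable h1

theorem ae_pos_pathProduct [IsProbabilityMeasure ν] (hW : IsRealization ν μ W)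
    (hpos : ν (Set.Ioi 0) = 1) : ∀ v : List ℕ, ∀ᵐ z ∂μ, 0 < pathProduct W v z
  | [] => by simp [pathProduct]
  | a :: v => by
    filter_upwards [ae_pos_pathProduct hW hpos v, ae_pos_W hW hpos (List.cons_ne_nil a v)]
      with z h1 h2
    simp only [pathProduct]
    exact mul_pos h1 h2

theorem integrable_pathProduct [IsProbabilityMeasure μ] (hW : IsRealization ν μ W)
    (hm2 : Integrable (fun x : ℝ => x ^ 2) ν) : ∀ v : List ℕ, Integrable (pathProduct W v) μ
  | [] => by
    simp only [pathProduct]
    exact integrable_const _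
  | a :: v => by
    have h := (indepFun_pathProduct hW.1 hW.2.1 v (g := W (a :: v))
      (measurable_sig (by simp))).integrable_mul (integrable_pathProduct hW hm2 v)
      ((memLp_W hW hm2 (List.cons_ne_nil a v)).integrable one_le_two)
    exact h

theorem integral_pathProduct [IsProbabilityMeasure μ] (hW : IsRealization ν μ W)
    (hmean : ∫ x, x ∂ν = 1) : ∀ v : List ℕ, ∫ z, pathProduct W v z ∂μ = 1
  | [] => by simp [pathProduct]
  | a :: v => by
    have h := (indepFun_pathProduct hW.1 hW.2.1 v (g := W (a :: v))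
      (measurable_sig (by simp))).integral_fun_mul_eq_mul_integral
      (measurable_pathProduct hW.1 v).aestronglyMeasurable (hW.1 _).aestronglyMeasurable
    simp only [pathProduct]
    rw [h, integral_pathProduct hW hmean v,
      integral_comp_W hW (List.cons_ne_nil a v) (f := fun x => x) measurable_id, hmean, mul_one]

/-- The `L¹` norm of `M_v * g` is the `L¹` norm of `g` when `g` depends on the next level only. -/
theorem integral_abs_mul [IsProbabilityMeasure μ] [IsProbabilityMeasure ν]
    (hW : IsRealization ν μ W) (hpos : ν (Set.Ioi 0) = 1) (hmean : ∫ x, x ∂ν = 1) (v : List ℕ)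
    {g : Ω → ℝ} (hg : Measurable[sig W {u | u.length = v.length + 1}] g) (hg' : Measurable g) :
    ∫ z, ‖pathProduct W v z * g z‖ ∂μ = ∫ z, |g z| ∂μ := by
  have h := (indepFun_pathProduct hW.1 hW.2.1 v (g := fun z => |g z|)
      (continuous_abs.measurable.comp hg)).integral_fun_mul_eq_mul_integral
      (measurable_pathProduct hW.1 v).aestronglyMeasurable
      (continuous_abs.measurable.comp hg').aestronglyMeasurable
  rw [integral_pathProduct hW hmean v, one_mul] at h
  rw [← h]
  refine integral_congr_ae ?_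
  filter_upwards [ae_pos_pathProduct hW hpos v] with z hz
  rw [Real.norm_eq_abs, abs_mul, abs_of_pos hz]

theorem integral_abs_le_sqrt [IsProbabilityMeasure μ] {g : Ω → ℝ} (hg : MemLp g 2 μ)
    (h0 : ∫ z, g z ∂μ = 0) : ∫ z, |g z| ∂μ ≤ Real.sqrt (Var[g; μ]) := by
  have h1 := variance_eq_sub hg
  have h2 := variance_eq_sub (hg.abs)
  have h3 := variance_nonneg (|g|) μ
  rw [h0] at h1
  have h4 : ∫ x, (|g| ^ 2) x ∂μ = ∫ x, (g ^ 2) x ∂μ := by
    refine integral_congr_ae (Filter.Eventually.of_forall fun z => ?_)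
    simp
  apply Real.le_sqrt_of_sq_le
  have h5 : ∫ x, (|g|) x ∂μ = ∫ z, |g z| ∂μ := rfl
  rw [h5, h4] at h2
  linarith

theorem integral_abs_sum_le [IsProbabilityMeasure μ] [IsProbabilityMeasure ν]
    (hW : IsRealization ν μ W) (hmean : ∫ x, x ∂ν = 1)
    (hm2 : Integrable (fun x : ℝ => x ^ 2) ν) (v : List ℕ) (s : Finset ℕ) (c : ℕ → ℝ) :
    ∫ z, |∑ a ∈ s, c a * (W (a :: v) z - 1)| ∂μ ≤
      Real.sqrt (Var[fun x : ℝ => x; ν]) * Real.sqrt (∑ a ∈ s, c a ^ 2) := by
  set X : ℕ → Ω → ℝ := fun a z => c a * (W (a :: v) z - 1) with hX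
  have hXL : ∀ a, MemLp (X a) 2 μ := fun a =>
    ((memLp_W hW hm2 (List.cons_ne_nil a v)).sub (memLp_const 1)).const_mul (c a)
  have hind : (s : Set ℕ).Pairwise fun i j => IndepFun (X i) (X j) μ := by
    intro i _ j _ hij
    have h := hW.2.1.indepFun (i := i :: v) (j := j :: v) (by simpa using hij)
    exact h.comp (φ := fun x => c i * (x - 1)) (ψ := fun x => c j * (x - 1))
      (by fun_prop) (by fun_prop)
  have hvar := IndepFun.variance_sum (fun i _ => hXL i) hind
  have hv1 : ∀ a, Var[X a; μ] = c a ^ 2 * Var[fun x : ℝ => x; ν] := by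
    intro a
    rw [hX]
    simp only
    rw [variance_const_mul, variance_sub_const (hW.1 _).aestronglyMeasurable,
      ← hW.2.2 (a :: v) (List.cons_ne_nil a v),
      variance_map (X := fun x : ℝ => x) measurable_id.aemeasurable (hW.1 _).aemeasurable]
    rfl
  have hG : MemLp (∑ a ∈ s, X a) 2 μ := memLp_finsetSum' s fun a _ => hXL a
  have h0 : ∫ z, (∑ a ∈ s, X a) z ∂μ = 0 := by
    simp only [Finset.sum_apply]
    rw [integral_finsetSum _ fun a _ => (hXL a).integrable one_le_two]
    refine Finset.sum_eq_zero fun a _ => ?_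
    rw [hX]
    simp only
    rw [integral_const_mul, integral_sub
      ((memLp_W hW hm2 (List.cons_ne_nil a v)).integrable one_le_two) (integrable_const _),
      integral_comp_W hW (List.cons_ne_nil a v) (f := fun x => x) measurable_id, hmean]
    simp
  have h := integral_abs_le_sqrt hG h0
  rw [hvar] at h
  simp only [hv1, Finset.sum_apply] at h
  rw [← Finset.sum_mul, Real.sqrt_mul (Finset.sum_nonneg fun a _ => sq_nonneg _), mul_comm] at h
  exact h

theorem integral_abs_sub_pos [IsProbabilityMeasure ν] (hnc : ∀ c : ℝ, ν ≠ Measure.dirac c)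
    (hm2 : Integrable (fun x : ℝ => x ^ 2) ν) : 0 < ∫ x, |x - 1| ∂ν := by
  have h1 : MemLp (fun x : ℝ => x) 2 ν :=
    (memLp_two_iff_integrable_sq measurable_id.aestronglyMeasurable).2 hm2
  have h2 : Integrable (fun x : ℝ => |x - 1|) ν :=
    ((h1.integrable one_le_two).sub (integrable_const 1)).abs
  refine lt_of_le_of_ne (integral_nonneg fun x => abs_nonneg _) fun h => ?_
  have h3 := (integral_eq_zero_iff_of_nonneg (fun x => abs_nonneg _) h2).1 h.symm
  apply hnc 1
  have h4 : (fun x : ℝ => x) =ᵐ[ν] fun _ => (1 : ℝ) := by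
    filter_upwards [h3] with x hx
    simpa [sub_eq_zero] using hx
  have h5 : Measure.map (fun x : ℝ => x) ν = Measure.map (fun _ => (1 : ℝ)) ν :=
    Measure.map_congr h4
  rw [Measure.map_id', Measure.map_const] at h5
  simpa using h5

end Crest.Agent.R125.Prod
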