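import Mathlib
import Crest.Agent.Lib.Banach.LpTwo
import Crest.Agent.R125.KPDef

/-! Row 125: the key property passes to `ℓ²`-sums. -/

set_option autoImplicit false
open Crest.Agent.Lib.Banach

namespace Crest.Agent.R125

theorem rk_finiteDimensional_range_sum {ι E : Type*} [AddCommGroup E] [Module ℝ E]
    (s : Finset ι) (f : ι → E →ₗ[ℝ] E) (hf : ∀ i, FiniteDimensional ℝ (LinearMap.range (f i))) :
    FiniteDimensional ℝ (LinearMap.range (∑ i ∈ s, f i)) := by
  classical
  induction s using Finset.induction_on with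
  | empty => rw [Finset.sum_empty, LinearMap.range_zero]; infer_instance
  | insert a s ha ih =>
    rw [Finset.sum_insert ha]
    have := hf a
    exact Submodule.finiteDimensional_of_le (LinearMap.range_add_le _ _)

theorem KP.lp_two {X : ℕ → Type} [∀ n, NormedAddCommGroup (X n)] [∀ n, NormedSpace ℝ (X n)]
    (h : ∀ n, KP (X n)) : KP (lp X 2) := by
  classical
  intro x ε hε
  obtain ⟨s, hs⟩ : ∃ s : Finset ℕ, ‖x - ∑ i ∈ s, lp.single (E := X) 2 i (x i)‖ < ε / 2 := by
    have h1 := lp.hasSum_single (p := 2) (by simp) x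
    have h2 := (Metric.tendsto_nhds.1 h1 (ε / 2) (half_pos hε)).exists
    obtain ⟨s, hs⟩ := h2
    exact ⟨s, by rwa [dist_comm, dist_eq_norm] at hs⟩
  have hε' : 0 < ε / 2 / (s.card + 1) := by positivity
  choose Q hQfin hQx hQle hQQ hQkey using fun n => h n (x n) _ hε'
  let P : lp X 2 →L[ℝ] lp X 2 := ∑ n ∈ s,
    (lp.singleContinuousLinearMap ℝ X 2 n).comp ((Q n).comp (lp.evalCLM ℝ X 2 n))
  have hP : ∀ w : lp X 2, P w = ∑ n ∈ s, lp.single (E := X) 2 n (Q n (w n)) := by
    intro w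
    simp only [P, sum_apply]
    rfl
  have hPc : ∀ (w : lp X 2) (n : ℕ), P w n = if n ∈ s then Q n (w n) else 0 := by
    intro w n
    rw [hP]
    simp only [lp.coeFn_sum, lp.coeFn_single, Finset.sum_apply, Finset.sum_pi_single]
  refine ⟨P, ?_, ?_, ?_, ?_, ?_⟩
  · have e : (P : lp X 2 →ₗ[ℝ] lp X 2) = ∑ n ∈ s,
        (((lp.singleContinuousLinearMap ℝ X 2 n).comp ((Q n).comp (lp.evalCLM ℝ X 2 n)) :
          lp X 2 →L[ℝ] lp X 2) : lp X 2 →ₗ[ℝ] lp X 2) := by
      simp only [P, ContinuousLinearMap.toLinearMap_sum]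
    rw [e]
    refine rk_finiteDimensional_range_sum s _ fun n => ?_
    have := hQfin n
    have hle : LinearMap.range (((lp.singleContinuousLinearMap ℝ X 2 n).comp
        ((Q n).comp (lp.evalCLM ℝ X 2 n)) : lp X 2 →L[ℝ] lp X 2) : lp X 2 →ₗ[ℝ] lp X 2) ≤
        (LinearMap.range (Q n : X n →ₗ[ℝ] X n)).map
          (lp.singleContinuousLinearMap ℝ X 2 n : X n →ₗ[ℝ] lp X 2) := by
      rintro _ ⟨w, rfl⟩
      exact ⟨Q n (w n), ⟨w n, rfl⟩, rfl⟩
    exact Submodule.finiteDimensional_of_le hle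
  · have e : x - P x = (x - ∑ i ∈ s, lp.single (E := X) 2 i (x i)) +
        ∑ i ∈ s, lp.single (E := X) 2 i (x i - Q i (x i)) := by
      rw [hP]
      simp only [lp.single_sub, Finset.sum_sub_distrib]
      abel
    have h1 : ‖∑ i ∈ s, lp.single (E := X) 2 i (x i - Q i (x i))‖ ≤ s.card * (ε / 2 / (s.card + 1)) := by
      refine (norm_sum_le _ _).trans ?_
      rw [← nsmul_eq_mul]
      refine Finset.sum_le_card_nsmul _ _ _ fun i _ => ?_
      rw [lp.norm_single (by simp)]
      exact (hQx i).le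
    have h2 : (s.card : ℝ) * (ε / 2 / (s.card + 1)) ≤ ε / 2 := by
      rw [← mul_div_assoc, div_le_iff₀ (by positivity)]
      nlinarith
    rw [e]
    linarith [norm_add_le (x - ∑ i ∈ s, lp.single (E := X) 2 i (x i))
      (∑ i ∈ s, lp.single (E := X) 2 i (x i - Q i (x i)))]
  · intro w
    refine lp.norm_mono (by simp) fun n => ?_
    rw [hPc]
    split_ifs
    · exact hQle n _
    · simp
  · intro w
    ext n
    rw [hPc, hPc]
    split_ifs
    · exact hQQ n _
    · rfl
  · intro w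
    have h1 := ((hasSum_norm_sq (P x)).mul_left 2).add ((hasSum_norm_sq (w - P w)).div_const 2)
    have h2 := (hasSum_norm_sq (P x + w)).add (hasSum_norm_sq (P x - w))
    refine hasSum_le (fun n => ?_) h1 h2
    simp only [lp.coeFn_add, lp.coeFn_sub, Pi.add_apply, Pi.sub_apply, hPc]
    split_ifs
    · exact hQkey n _
    · simp only [norm_zero, sub_zero, zero_add, zero_sub, norm_neg]
      nlinarith [sq_nonneg ‖w n‖]

end Crest.Agent.R125
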