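import Mathlib
import Crest.Agent.Lib.Banach.LpTwo
import Crest.Agent.R125.PotTest

/-! Row 125: the height-`n` test norm on `ℓ²` of the countably branching tree. -/

set_option autoImplicit false
open Crest.Agent.Lib.Banach Crest.AnalysisR.TreePotential
open scoped RealInnerProductSpace

namespace Crest.Agent.R125

/-- The Hilbert space of square summable functions on the tree. -/
abbrev TH : Type := lp (fun _ : List ℕ => ℝ) 2

/-- Truncation of a coefficient family at height `n`. -/
def rtrunc (n : ℕ) (f : List ℕ → ℝ) (s : List ℕ) : ℝ := if s.length ≤ n then f s else 0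

/-- Tests of height `n`. -/
def IsTest (n : ℕ) (f : TH) : Prop := ‖f‖ ≤ 1 ∧ ∀ s, |pathPotential (rtrunc n f) s| ≤ 1

theorem rn_pot_smul (c : ℝ) (f : List ℕ → ℝ) (s : List ℕ) :
    pathPotential (fun u => c * f u) s = c * pathPotential f s := by
  induction s with
  | nil => simp [pathPotential]
  | cons a v ih => simp only [pathPotential, ih]; ring

theorem IsTest.smul {n : ℕ} {f : TH} (hf : IsTest n f) {c : ℝ} (hc : |c| ≤ 1) :
    IsTest n (c • f) := by
  refine ⟨?_, fun s => ?_⟩
  · rw [norm_smul, Real.norm_eq_abs]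
    exact mul_le_one₀ hc (norm_nonneg _) hf.1
  · have e : rtrunc n (⇑(c • f)) = fun u => c * rtrunc n f u := by
      ext u
      simp only [rtrunc, lp.coeFn_smul, Pi.smul_apply, smul_eq_mul]
      split_ifs <;> simp
    rw [e, rn_pot_smul, abs_mul]
    exact mul_le_one₀ hc (abs_nonneg _) (hf.2 s)

theorem isTest_of_small (n : ℕ) (f : TH) (hf : ‖f‖ ≤ 1 / (n + 1)) : IsTest n f := by
  have hn : (0 : ℝ) < n + 1 := by positivity
  refine ⟨hf.trans ((div_le_one hn).2 (by linarith [Nat.cast_nonneg (α := ℝ) n])), fun s => ?_⟩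
  have hc : ∀ u, |f u| ≤ 1 / (n + 1) := fun u =>
    (lp.norm_apply_le_norm (by simp) f u).trans hf
  have key : ∀ s : List ℕ, |pathPotential (rtrunc n f) s| ≤
      ((min s.length n : ℕ) + 1) * (1 / (n + 1)) := by
    intro s
    induction s with
    | nil => simpa [pathPotential, rtrunc] using hc []
    | cons a v ih =>
      simp only [pathPotential]
      by_cases h : (a :: v).length ≤ n
      · have h1 : min (a :: v).length n = min v.length n + 1 := by
          simp only [List.length_cons] at h ⊢; omega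
        rw [h1]
        have h2 : |rtrunc n f (a :: v)| ≤ 1 / (n + 1) := by
          simp only [rtrunc, if_pos h]; exact hc _
        have h3 := abs_add_le (pathPotential (rtrunc n f) v) (rtrunc n f (a :: v))
        push_cast at ih ⊢
        linarith
      · have h1 : min (a :: v).length n = min v.length n := by
          simp only [List.length_cons] at h ⊢; omega
        rw [h1]
        simp only [rtrunc, if_neg h, add_zero]
        exact ih
  refine (key s).trans ?_
  have h1 : ((min s.length n : ℕ) : ℝ) ≤ n := by exact_mod_cast min_le_right _ _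
  rw [mul_one_div, div_le_one hn]
  linarith

theorem isTest_zero (n : ℕ) : IsTest n 0 :=
  isTest_of_small n 0 (by rw [norm_zero]; positivity)

instance (n : ℕ) : Nonempty {f : TH // IsTest n f} := ⟨⟨0, isTest_zero n⟩⟩

/-- The test norm of height `n`. -/
noncomputable def tN (n : ℕ) (x : TH) : ℝ := ⨆ f : {f : TH // IsTest n f}, ⟪f.1, x⟫

theorem IsTest.inner_le_norm {n : ℕ} {f : TH} (hf : IsTest n f) (x : TH) : ⟪f, x⟫ ≤ ‖x‖ :=
  (real_inner_le_norm f x).trans (mul_le_of_le_one_left (norm_nonneg _) hf.1)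

theorem IsTest.le_tN {n : ℕ} {f : TH} (hf : IsTest n f) (x : TH) : ⟪f, x⟫ ≤ tN n x :=
  le_ciSup (f := fun f : {f : TH // IsTest n f} => ⟪f.1, x⟫)
    ⟨‖x‖, by rintro _ ⟨g, rfl⟩; exact g.2.inner_le_norm x⟩ ⟨f, hf⟩

theorem tN_le {n : ℕ} {x : TH} {c : ℝ} (h : ∀ f, IsTest n f → ⟪f, x⟫ ≤ c) : tN n x ≤ c :=
  ciSup_le fun f => h f.1 f.2

theorem tN_le_norm (n : ℕ) (x : TH) : tN n x ≤ ‖x‖ := tN_le fun _ hf => hf.inner_le_norm x

theorem tN_nonneg (n : ℕ) (x : TH) : 0 ≤ tN n x := by
  simpa using (isTest_zero n).le_tN x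

theorem tN_add_le (n : ℕ) (x y : TH) : tN n (x + y) ≤ tN n x + tN n y :=
  tN_le fun f hf => by
    rw [inner_add_right]
    exact add_le_add (hf.le_tN x) (hf.le_tN y)

theorem tN_smul_le (n : ℕ) (c : ℝ) (x : TH) : tN n (c • x) ≤ |c| * tN n x :=
  tN_le fun f hf => by
    rw [real_inner_smul_right]
    rcases le_total 0 c with h | h
    · rw [abs_of_nonneg h]
      exact mul_le_mul_of_nonneg_left (hf.le_tN x) h
    · have h1 := (hf.smul (c := -1) (by simp)).le_tN x
      rw [real_inner_smul_left] at h1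
      rw [abs_of_nonpos h]
      nlinarith

theorem tN_neg (n : ℕ) (x : TH) : tN n (-x) = tN n x := by
  have h : ∀ y : TH, tN n (-y) ≤ tN n y := fun y => by
    simpa using tN_smul_le n (-1) y
  exact le_antisymm (h x) (by simpa using h (-x))

theorem norm_le_tN (n : ℕ) (x : TH) : ‖x‖ ≤ (n + 1) * tN n x := by
  have hn : (0 : ℝ) < n + 1 := by positivity
  rcases (norm_nonneg x).eq_or_lt with h | h
  · rw [← h]; exact mul_nonneg hn.le (tN_nonneg n x)
  · have h1 : IsTest n ((1 / ((n + 1) * ‖x‖)) • x) := by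
      refine isTest_of_small n _ (le_of_eq ?_)
      rw [norm_smul, Real.norm_eq_abs, abs_of_pos (by positivity)]
      field_simp
    have h2 := h1.le_tN x
    rw [real_inner_smul_left, real_inner_self_eq_norm_sq] at h2
    have h3 : 1 / ((n + 1) * ‖x‖) * ‖x‖ ^ 2 = ‖x‖ / (n + 1) := by field_simp
    rw [h3, div_le_iff₀ hn] at h2
    linarith

/-- Restriction to a finite set of vertices. -/
noncomputable def rP (T : Finset (List ℕ)) : TH →L[ℝ] TH :=
  ∑ s ∈ T, (lp.singleContinuousLinearMap ℝ (fun _ : List ℕ => ℝ) 2 s).comp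
    (lp.evalCLM ℝ (fun _ : List ℕ => ℝ) 2 s)

theorem rP_eq (T : Finset (List ℕ)) (x : TH) :
    rP T x = ∑ s ∈ T, lp.single (E := fun _ : List ℕ => ℝ) 2 s (x s) := by
  simp only [rP, sum_apply]
  rfl

theorem rP_apply (T : Finset (List ℕ)) (x : TH) (s : List ℕ) :
    rP T x s = if s ∈ T then x s else 0 := by
  rw [rP_eq]
  simp only [lp.coeFn_sum, lp.coeFn_single, Finset.sum_apply, Finset.sum_pi_single]

theorem rP_rP (T : Finset (List ℕ)) (x : TH) : rP T (rP T x) = rP T x := by
  ext s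
  rw [rP_apply, rP_apply]
  split_ifs <;> rfl

theorem rn_inner_congr {f g x y : TH} (h : ∀ s, f s * x s = g s * y s) : ⟪f, x⟫ = ⟪g, y⟫ := by
  rw [lp.inner_eq_tsum, lp.inner_eq_tsum]
  refine tsum_congr fun s => ?_
  simp only [RCLike.inner_apply, conj_trivial]
  rw [mul_comm, h s, mul_comm]

theorem inner_rP (T : Finset (List ℕ)) (f x : TH) : ⟪f, rP T x⟫ = ⟪rP T f, x⟫ :=
  rn_inner_congr fun s => by
    rw [rP_apply, rP_apply]
    split_ifs <;> simp

theorem IsTest.rP {n : ℕ} {f : TH} (hf : IsTest n f) (T : Finset (List ℕ))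
    (hT : ∀ a v, a :: v ∈ T → v ∈ T) (h0 : [] ∈ T) : IsTest n (rP T f) := by
  classical
  refine ⟨le_trans (lp.norm_mono (by simp) fun s => ?_) hf.1, fun s => ?_⟩
  · rw [rP_apply]
    split_ifs
    · exact le_rfl
    · simp
  · obtain ⟨r, -, hr⟩ := pathPotential_restrict (T : Set (List ℕ)) hT h0 s
    have h1 := (hr (rtrunc n f)).1
    have e : rtrunc n (R125.rP T f) = fun u => if u ∈ (T : Set (List ℕ)) then rtrunc n f u else 0 := by
      ext u
      simp only [rtrunc, rP_apply, Finset.mem_coe]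
      split_ifs <;> rfl
    have h2 := hf.2 r
    rw [← h1] at h2
    rw [e]
    convert h2

theorem tN_rP_le (n : ℕ) (T : Finset (List ℕ)) (hT : ∀ a v, a :: v ∈ T → v ∈ T) (h0 : [] ∈ T)
    (x : TH) : tN n (rP T x) ≤ tN n x :=
  tN_le fun f hf => by
    rw [inner_rP]
    exact (hf.rP T hT h0).le_tN x

/-- The test lemma inside `ℓ²`. -/
theorem exists_isTest_pair {n : ℕ} (T : Finset (List ℕ)) (hT : ∀ a v, a :: v ∈ T → v ∈ T)
    (h0 : [] ∈ T) {f g : TH} (hf : IsTest n f) (hg : IsTest n g) (al be : ℝ) (hal : 0 ≤ al)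
    (hbe : 0 ≤ be) (hab : al ^ 2 + be ^ 2 ≤ 1) :
    ∃ h1 h2 : TH, IsTest n h1 ∧ IsTest n h2 ∧ (∀ s ∈ T, h1 s = al * f s ∧ h2 s = al * f s) ∧
      ∀ s, s ∉ T → h1 s - h2 s = be * g s := by
  classical
  obtain ⟨k1, k2, hk1, hk2, hin, hout⟩ := exists_test_pair (T : Set (List ℕ)) hT h0
    (rtrunc n f) (rtrunc n g) hf.2 hg.2 al be hal hbe hab
  -- extend below height `n`
  have main : ∀ (k : List ℕ → ℝ) (σ : ℝ), |σ| ≤ 1 → (∀ s, |pathPotential k s| ≤ 1) →
      (∀ s ∈ T, k s = al * rtrunc n f s) → (∀ s, s ∉ T → |k s| ≤ be * |rtrunc n g s|) →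
      ∃ h : TH, IsTest n h ∧ (∀ s ∈ T, h s = al * f s) ∧
        ∀ s, s ∉ T → h s = if s.length ≤ n then k s else σ * (be * g s) := by
    intro k σ hσ hk hkin hkout
    let F : List ℕ → ℝ := fun s =>
      if s ∈ T then al * f s else if s.length ≤ n then k s else σ * (be * g s)
    have hF1 : ∀ s ∈ T, F s = al * f s := fun s hs => by simp only [F, if_pos hs]
    have hF2 : ∀ s, s ∉ T → |F s| ≤ be * |g s| := by
      intro s hs
      simp only [F, if_neg hs]
      split_ifs with hl
      · have := hkout s hs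
        simpa only [rtrunc, if_pos hl] using this
      · rw [abs_mul, abs_mul, abs_of_nonneg hbe]
        exact mul_le_of_le_one_left (by positivity) hσ
    have hsq : ∀ s, ‖F s‖ ^ 2 ≤ al ^ 2 * ‖f s‖ ^ 2 + be ^ 2 * ‖g s‖ ^ 2 := by
      intro s
      simp only [Real.norm_eq_abs, sq_abs]
      exact sq_le_of_test_pair (T := (T : Set (List ℕ))) hF1 hF2 s
    have hs2 := ((hasSum_norm_sq f).mul_left (al ^ 2)).add ((hasSum_norm_sq g).mul_left (be ^ 2))
    have hmem : Memℓp F 2 :=
      memℓp_two_of_summable (X := fun _ : List ℕ => ℝ)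
        (Summable.of_nonneg_of_le (fun _ => sq_nonneg _) hsq hs2.summable)
    let h : TH := ⟨F, hmem⟩
    refine ⟨h, ⟨?_, fun s => ?_⟩, hF1, fun s hs => by simp only [h, F, if_neg hs]⟩
    · have h1 := hasSum_le hsq (hasSum_norm_sq h) hs2
      have h2 : ‖f‖ ^ 2 ≤ 1 := pow_le_one₀ (norm_nonneg _) hf.1
      have h3 : ‖g‖ ^ 2 ≤ 1 := pow_le_one₀ (norm_nonneg _) hg.1
      have h4 : ‖h‖ ^ 2 ≤ 1 := by nlinarith [sq_nonneg al, sq_nonneg be]
      exact (pow_le_one_iff_of_nonneg (norm_nonneg _) two_ne_zero).1 h4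
    · have e : rtrunc n h = k := by
        ext u
        by_cases hu : u ∈ T
        · rw [hkin u hu]
          simp only [rtrunc, h, F, if_pos hu]
          split_ifs <;> simp
        · simp only [rtrunc, h, F, if_neg hu]
          split_ifs with hl
          · rfl
          · have := hkout u hu
            simp only [rtrunc, if_neg hl, abs_zero, mul_zero] at this
            exact (abs_nonpos_iff.1 this).symm
      rw [e]; exact hk s
  obtain ⟨h1, t1, a1, b1⟩ := main k1 (1 / 2) (by norm_num [abs_le]) hk1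
    (fun s hs => (hin s hs).1) (fun s hs => (hout s hs).2.1)
  obtain ⟨h2, t2, a2, b2⟩ := main k2 (-1 / 2) (by norm_num [abs_le]) hk2
    (fun s hs => (hin s hs).2) (fun s hs => (hout s hs).2.2)
  refine ⟨h1, h2, t1, t2, fun s hs => ⟨a1 s hs, a2 s hs⟩, fun s hs => ?_⟩
  rw [b1 s hs, b2 s hs]
  split_ifs with hl
  · have := (hout s hs).1
    simpa only [rtrunc, if_pos hl] using this
  · ring

/-- The key midpoint inequality for the test norm. -/
theorem tN_key (n : ℕ) (T : Finset (List ℕ)) (hT : ∀ a v, a :: v ∈ T → v ∈ T) (h0 : [] ∈ T)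
    (x w : TH) : 2 * tN n (rP T x) ^ 2 + tN n (w - rP T w) ^ 2 / 2 ≤
      tN n (rP T x + w) ^ 2 + tN n (rP T x - w) ^ 2 := by
  set a := tN n (rP T x + w)
  set b := tN n (rP T x - w)
  set A := tN n (rP T x)
  set B := tN n (w - rP T w)
  have ha : 0 ≤ a := tN_nonneg _ _
  have hb : 0 ≤ b := tN_nonneg _ _
  have hA : 0 ≤ A := tN_nonneg _ _
  have hB : 0 ≤ B := tN_nonneg _ _
  have step : ∀ al be : ℝ, 0 < al → 0 < be → al ^ 2 + be ^ 2 ≤ 1 → 2 * al * A + be * B ≤ a + b := by
    intro al be hal hbe hab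
    have h1 : ∀ f g : TH, IsTest n f → IsTest n g →
        2 * al * ⟪f, rP T x⟫ + be * ⟪g, w - rP T w⟫ ≤ a + b := by
      intro f g hf hg
      obtain ⟨h1, h2, t1, t2, hin, hout⟩ :=
        exists_isTest_pair T hT h0 hf hg al be hal.le hbe.le hab
      have e1 : ⟪h1 + h2, rP T x⟫ = ⟪(2 * al) • f, rP T x⟫ := rn_inner_congr fun s => by
        simp only [lp.coeFn_add, lp.coeFn_smul, Pi.add_apply, Pi.smul_apply, smul_eq_mul, rP_apply]
        split_ifs with hs
        · rw [(hin s hs).1, (hin s hs).2]; ring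
        · simp
      have e2 : ⟪h1 - h2, w⟫ = ⟪be • g, w - rP T w⟫ := rn_inner_congr fun s => by
        simp only [lp.coeFn_sub, lp.coeFn_smul, Pi.sub_apply, Pi.smul_apply, smul_eq_mul, rP_apply]
        split_ifs with hs
        · rw [(hin s hs).1, (hin s hs).2]; ring
        · rw [hout s hs]; ring
      have e3 := t1.le_tN (rP T x + w)
      have e4 := t2.le_tN (rP T x - w)
      rw [inner_add_left, real_inner_smul_left] at e1
      rw [inner_sub_left, real_inner_smul_left] at e2
      rw [inner_add_right] at e3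
      rw [inner_sub_right] at e4
      linarith
    have h2 : ∀ g : TH, IsTest n g → 2 * al * A + be * ⟪g, w - rP T w⟫ ≤ a + b := by
      intro g hg
      have h3 : A ≤ (a + b - be * ⟪g, w - rP T w⟫) / (2 * al) := tN_le fun f hf => by
        rw [le_div_iff₀ (by positivity)]
        linarith [h1 f g hf hg]
      rw [le_div_iff₀ (by positivity)] at h3
      linarith
    have h3 : B ≤ (a + b - 2 * al * A) / be := tN_le fun g hg => by
      rw [le_div_iff₀ hbe]
      linarith [h2 g hg]
    rw [le_div_iff₀ hbe] at h3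
    linarith
  -- optimise
  have hsq : 4 * A ^ 2 + B ^ 2 ≤ (a + b) ^ 2 := by
    refine le_of_forall_pos_le_add fun η hη => ?_
    -- use `al = (2A + t) / r`, `be = (B + t) / r`
    by_contra hcon
    push Not at hcon
    have hpos : 0 < 4 * A ^ 2 + B ^ 2 := by nlinarith [sq_nonneg (a + b)]
    have hcont : ContinuousAt (fun t : ℝ => ((2 * A + t) * (2 * A) + (B + t) * B) ^ 2 -
        ((a + b) ^ 2) * ((2 * A + t) ^ 2 + (B + t) ^ 2)) 0 := by fun_prop
    have hv : 0 < ((2 * A + 0) * (2 * A) + (B + 0) * B) ^ 2 -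
        ((a + b) ^ 2) * ((2 * A + 0) ^ 2 + (B + 0) ^ 2) := by
      have : ((2 * A + 0) * (2 * A) + (B + 0) * B) ^ 2 -
        ((a + b) ^ 2) * ((2 * A + 0) ^ 2 + (B + 0) ^ 2) =
          (4 * A ^ 2 + B ^ 2) * (4 * A ^ 2 + B ^ 2 - (a + b) ^ 2) := by ring
      rw [this]
      exact mul_pos hpos (by linarith)
    have hev := hcont.eventually (lt_mem_nhds hv)
    obtain ⟨t, ht, ht0⟩ := ((hev.filter_mono nhdsWithin_le_nhds).and
      (self_mem_nhdsWithin (s := Set.Ioi (0 : ℝ)))).exists
    have ht0' : 0 < t := ht0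
    set r := Real.sqrt ((2 * A + t) ^ 2 + (B + t) ^ 2) with hr
    have hr2 : r ^ 2 = (2 * A + t) ^ 2 + (B + t) ^ 2 := Real.sq_sqrt (by positivity)
    have hr0 : 0 < r := Real.sqrt_pos.2 (by positivity)
    have h1 := step ((2 * A + t) / r) ((B + t) / r) (by positivity) (by positivity)
      (by rw [div_pow, div_pow, ← add_div, ← hr2, div_self (by positivity)])
    have h2 : (2 * A + t) * (2 * A) + (B + t) * B ≤ (a + b) * r := by
      have e : 2 * ((2 * A + t) / r) * A + (B + t) / r * B =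
          ((2 * A + t) * (2 * A) + (B + t) * B) / r := by field_simp
      rw [e, div_le_iff₀ hr0] at h1
      exact h1
    have h3 : ((2 * A + t) * (2 * A) + (B + t) * B) ^ 2 ≤ ((a + b) * r) ^ 2 :=
      pow_le_pow_left₀ (by positivity) h2 2
    rw [mul_pow, hr2] at h3
    linarith
  nlinarith [sq_nonneg (a - b)]

end Crest.Agent.R125
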