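import Mathlib
import Crest.Agent.R125.ReflNorm
import Crest.Agent.R125.ReflKP
import Crest.Agent.R125.NoAUC

/-! Row 125: the reflexive space of statement S0166. -/

set_option autoImplicit false
open Crest.Agent.Lib.Banach Crest.AnalysisR Crest.AnalysisR.TreePotential
open scoped RealInnerProductSpace

namespace Crest.Agent.R125

/-- `ℓ²` of the tree with the test norm of height `n`. -/
def TX (_n : ℕ) : Type := TH

noncomputable instance (n : ℕ) : AddCommGroup (TX n) := inferInstanceAs (AddCommGroup TH)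

noncomputable instance (n : ℕ) : Module ℝ (TX n) := inferInstanceAs (Module ℝ TH)

/-- The identity map as a linear equivalence. -/
noncomputable def toTX (n : ℕ) : TH ≃ₗ[ℝ] TX n := LinearEquiv.refl ℝ TH

/-- The test norm as a group norm. -/
noncomputable def txNorm (n : ℕ) : AddGroupNorm (TX n) where
  toFun x := tN n ((toTX n).symm x)
  map_zero' := by
    refine le_antisymm ?_ (tN_nonneg _ _)
    simpa using tN_le_norm n 0
  add_le' x y := by rw [map_add]; exact tN_add_le n _ _
  neg' x := by rw [map_neg]; exact tN_neg n _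
  eq_zero_of_map_eq_zero' x hx := by
    have h := norm_le_tN n ((toTX n).symm x)
    have hx' : tN n ((toTX n).symm x) = 0 := hx
    rw [hx', mul_zero, norm_le_zero_iff] at h
    simpa using h

noncomputable instance (n : ℕ) : NormedAddCommGroup (TX n) := (txNorm n).toNormedAddCommGroup

theorem tx_norm (n : ℕ) (x : TX n) : ‖x‖ = tN n ((toTX n).symm x) := rfl

theorem norm_toTX (n : ℕ) (x : TH) : ‖toTX n x‖ = tN n x := rfl

noncomputable instance (n : ℕ) : NormedSpace ℝ (TX n) where
  norm_smul_le c x := by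
    rw [tx_norm, tx_norm, map_smul]
    exact tN_smul_le n c _

/-- The identity map as a continuous linear equivalence. -/
noncomputable def toTXL (n : ℕ) : TH ≃L[ℝ] TX n :=
  (toTX n).toContinuousLinearEquivOfBounds 1 (n + 1)
    (fun x => by rw [norm_toTX, one_mul]; exact tN_le_norm n x)
    (fun x => by rw [tx_norm]; exact norm_le_tN n _)

theorem norm_toTXL (n : ℕ) (x : TH) : ‖toTXL n x‖ = tN n x := rfl

instance (n : ℕ) : CompleteSpace (TX n) :=
  (completeSpace_congr (e := (toTXL n).toEquiv) (toTXL n).isUniformEmbedding).1 inferInstance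

instance : TopologicalSpace.SeparableSpace TH := separableSpace_lp

instance (n : ℕ) : TopologicalSpace.SeparableSpace (TX n) :=
  (toTXL n).surjective.denseRange.separableSpace (toTXL n).continuous

theorem isRefl_TX (n : ℕ) : IsRefl (TX n) := (isRefl_hilbert TH).of_equiv (toTXL n)

theorem exists_closed_finset (T0 : Finset (List ℕ)) :
    ∃ T : Finset (List ℕ), T0 ⊆ T ∧ (∀ a v, a :: v ∈ T → v ∈ T) ∧ [] ∈ T := by
  classical
  refine ⟨insert [] (T0.biUnion fun v => v.tails.toFinset), fun v hv => ?_, fun a v hv => ?_,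
    Finset.mem_insert_self _ _⟩
  · refine Finset.mem_insert_of_mem (Finset.mem_biUnion.2 ⟨v, hv, ?_⟩)
    simp
  · rcases Finset.mem_insert.1 hv with h | h
    · exact absurd h (by simp)
    · obtain ⟨u, hu, hvu⟩ := Finset.mem_biUnion.1 h
      refine Finset.mem_insert_of_mem (Finset.mem_biUnion.2 ⟨u, hu, ?_⟩)
      simp only [List.mem_toFinset, List.mem_tails] at hvu ⊢
      exact (List.suffix_cons a v).trans hvu

theorem kp_TX (n : ℕ) : KP (TX n) := by
  classical
  intro x ε hε
  obtain ⟨x, rfl⟩ := (toTXL n).surjective x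
  have h1 := lp.hasSum_single (p := 2) (by simp) x
  obtain ⟨T0, hT0⟩ := Filter.eventually_atTop.1 (Metric.tendsto_nhds.1 h1 ε hε)
  obtain ⟨T, hsub, hT, h0⟩ := exists_closed_finset T0
  have h2 : ‖x - rP T x‖ < ε := by
    have := hT0 T hsub
    rwa [dist_comm, dist_eq_norm, ← rP_eq] at this
  let P : TX n →L[ℝ] TX n :=
    (toTXL n : TH →L[ℝ] TX n).comp ((rP T).comp ((toTXL n).symm : TX n →L[ℝ] TH))
  have hP : ∀ w : TH, P (toTXL n w) = toTXL n (rP T w) := fun w => by simp [P]
  refine ⟨P, ?_, ?_, ?_, ?_, ?_⟩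
  · have hle : LinearMap.range (P : TX n →ₗ[ℝ] TX n) ≤ Submodule.span ℝ
        ((T.image fun s => toTXL n (lp.single (E := fun _ : List ℕ => ℝ) 2 s 1) : Finset (TX n)) :
          Set (TX n)) := by
      rintro _ ⟨w, rfl⟩
      obtain ⟨w, rfl⟩ := (toTXL n).surjective w
      change P (toTXL n w) ∈ _
      rw [hP, rP_eq, map_sum]
      refine Submodule.sum_mem _ fun s hs => ?_
      have e : lp.single (E := fun _ : List ℕ => ℝ) 2 s (w s) =
          w s • lp.single (E := fun _ : List ℕ => ℝ) 2 s 1 := by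
        rw [← lp.single_smul]; simp
      rw [e, map_smul]
      refine Submodule.smul_mem _ _ (Submodule.subset_span ?_)
      simp only [Finset.coe_image]
      exact ⟨s, hs, rfl⟩
    exact Submodule.finiteDimensional_of_le hle
  · rw [hP, ← map_sub, norm_toTXL]
    exact (tN_le_norm n _).trans_lt h2
  · intro w
    obtain ⟨w, rfl⟩ := (toTXL n).surjective w
    rw [hP, norm_toTXL, norm_toTXL]
    exact tN_rP_le n T hT h0 w
  · intro w
    obtain ⟨w, rfl⟩ := (toTXL n).surjective w
    rw [hP, hP, rP_rP]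
  · intro w
    obtain ⟨w, rfl⟩ := (toTXL n).surjective w
    rw [hP, hP, ← map_sub, ← map_add, ← map_sub]
    simp only [norm_toTXL]
    exact tN_key n T hT h0 x w

/-- The reflexive space: the `ℓ²`-sum of the height-`n` models. -/
abbrev RE : Type := lp TX 2

theorem kp_RE : KP RE := KP.lp_two kp_TX

theorem isRefl_RE : IsRefl RE := isRefl_lp isRefl_TX

theorem separable_RE : TopologicalSpace.SeparableSpace RE := separableSpace_lp

/-- Basis vectors of `ℓ²` of the tree. -/
noncomputable def tE (u : List ℕ) : TH := lp.single (E := fun _ : List ℕ => ℝ) 2 u 1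

/-- Sum of the basis vectors along the path from the root. -/
noncomputable def tS : List ℕ → TH
  | [] => tE []
  | a :: v => tS v + tE (a :: v)

theorem inner_tE (f : TH) (u : List ℕ) : ⟪f, tE u⟫ = f u := by
  rw [tE, lp.inner_single_right]
  simp

theorem inner_tS {n : ℕ} (f : TH) (v : List ℕ) (hv : v.length ≤ n) :
    ⟪f, tS v⟫ = pathPotential (rtrunc n f) v := by
  induction v with
  | nil => simp [tS, inner_tE, pathPotential, rtrunc]
  | cons a v ih =>
    simp only [tS, pathPotential, inner_add_right, inner_tE]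
    rw [ih (by simp only [List.length_cons] at hv; omega)]
    simp only [rtrunc, if_pos hv]

theorem tN_tS_le {n : ℕ} (v : List ℕ) (hv : v.length ≤ n) : tN n (tS v) ≤ 1 :=
  tN_le fun f hf => by
    rw [inner_tS f v hv]
    exact (le_abs_self _).trans (hf.2 v)

theorem isTest_tE (n : ℕ) (u : List ℕ) : IsTest n (tE u) := by
  refine ⟨by rw [tE, lp.norm_single (by simp)]; simp, fun s => ?_⟩
  have hne : ∀ s, s ≠ u → rtrunc n (tE u) s = 0 := by
    intro s hs
    simp only [rtrunc, tE]
    rw [lp.single_apply_ne _ _ _ hs]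
    simp
  have hle : ∀ s, |rtrunc n (tE u) s| ≤ 1 := by
    intro s
    by_cases hs : s = u
    · subst hs
      simp only [rtrunc, tE]
      rw [lp.single_apply_self]
      split_ifs <;> simp
    · rw [hne s hs]; simp
  have h0 : ∀ s : List ℕ, s.length < u.length → pathPotential (rtrunc n (tE u)) s = 0 := by
    intro s
    induction s with
    | nil => intro h; exact hne _ (by rintro rfl; simp at h)
    | cons a v ih =>
      intro h
      simp only [pathPotential]
      rw [ih (by simp only [List.length_cons] at h; omega), hne _ (by rintro rfl; simp at h),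
        add_zero]
  induction s with
  | nil => exact hle []
  | cons a v ih =>
    simp only [pathPotential]
    by_cases h : a :: v = u
    · rw [h0 v (by rw [← h]; simp), zero_add]
      exact hle _
    · rw [hne _ h, add_zero]
      exact ih

theorem one_le_tN_tE (n : ℕ) (u : List ℕ) : 1 ≤ tN n (tE u) := by
  have h := (isTest_tE n u).le_tN (tE u)
  rw [inner_tE, tE, lp.single_apply_self] at h
  exact h

/-- The embedding of the `n`-th summand. -/
noncomputable def rJ (n : ℕ) : TH →L[ℝ] RE :=
  (lp.singleContinuousLinearMap ℝ TX 2 n).comp (toTXL n : TH →L[ℝ] TX n)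

theorem norm_rJ (n : ℕ) (x : TH) : ‖rJ n x‖ = tN n x := by
  change ‖lp.single (E := TX) 2 n (toTXL n x)‖ = _
  rw [lp.norm_single (by simp), norm_toTXL]

theorem rJ_siblings (n : ℕ) (v : List ℕ) (s : Finset ℕ) (a : ℕ → ℝ) :
    ‖∑ j ∈ s, a j • rJ n (tE (j :: v))‖ ≤ 1 * Real.sqrt (∑ j ∈ s, a j ^ 2) := by
  classical
  have e : ∑ j ∈ s, a j • rJ n (tE (j :: v)) = rJ n (∑ j ∈ s, a j • tE (j :: v)) := by
    simp only [map_sum, map_smul]
  rw [e, norm_rJ, one_mul]
  refine (tN_le_norm n _).trans (Real.le_sqrt_of_sq_le (le_of_eq ?_))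
  have ho : Orthonormal ℝ fun j : ℕ => tE (j :: v) := by
    rw [orthonormal_iff_ite]
    intro i j
    rw [inner_tE]
    by_cases h : i = j
    · subst h
      rw [tE, lp.single_apply_self]; simp
    · rw [tE, lp.single_apply_ne _ _ _ (by simpa using Ne.symm h), if_neg h]
  rw [← real_inner_self_eq_norm_sq, ho.inner_sum a a s]
  simp [sq]

theorem not_finiteDimensional_RE : ¬ FiniteDimensional ℝ RE := by
  intro hfin
  have hc := isCof_ker (ContinuousLinearMap.id ℝ RE)
  obtain ⟨j, y, hy, hj⟩ := exists_near_cof_of_upper_l2 (fun j => rJ 0 (tE (j :: []))) 1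
    (rJ_siblings 0 []) _ hc 1 one_pos
  have hy0 : y = 0 := hy
  rw [hy0, sub_zero, norm_rJ] at hj
  exact absurd (one_le_tN_tE 0 _) (not_le.2 hj)

theorem not_isAUC_RE (N : RE → ℝ) (hN : (mkB RE).IsEquivNorm N) : ¬ (mkB RE).IsAUC N := by
  refine not_isAUC_of_trees (1 / 2) 1 (by norm_num)
    (fun k => {x | ∃ n v, v.length + k ≤ n ∧ x = rJ n (tS v)}) ?_ ?_ ?_ N hN
  · intro k
    refine ⟨rJ k (tS []), ⟨k, [], by simp, rfl⟩, ?_⟩
    rw [norm_rJ]
    have := one_le_tN_tE k []
    simp only [tS]
    linarith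
  · rintro k x ⟨n, v, hv, rfl⟩
    rw [norm_rJ]
    exact tN_tS_le v (by omega)
  · rintro k x ⟨n, v, hv, rfl⟩ F hF ε hε
    obtain ⟨j, y, hy, hj⟩ := exists_near_cof_of_upper_l2 (fun j => rJ n (tE (j :: v))) 1
      (rJ_siblings n v) F hF (min ε (1 / 2)) (lt_min hε (by norm_num))
    refine ⟨y, hy, ?_, rJ n (tS (j :: v)), ⟨n, j :: v, by simp only [List.length_cons]; omega, rfl⟩,
      ?_⟩
    · have h1 := one_le_tN_tE n (j :: v)
      rw [← norm_rJ] at h1
      have h2 := norm_sub_norm_le (rJ n (tE (j :: v))) y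
      have h3 := min_le_right ε (1 / 2)
      linarith
    · have e : rJ n (tS v) + y - rJ n (tS (j :: v)) = -(rJ n (tE (j :: v)) - y) := by
        simp only [tS, map_add]; abel
      rw [e, norm_neg]
      exact hj.le.trans (min_le_left _ _)

end Crest.Agent.R125
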